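import Vale.Agent.GSH.Defs

namespace Vale.Agent.GSH

open GenRE

variable {α : Type}

/-- `L` is denoted by an expression of star height at most `k`. -/
def HasH (k : ℕ) (L : Language α) : Prop := ∃ e : GenRE α, e.starHeight ≤ k ∧ e.lang = L

theorem HasH.mono {k l : ℕ} (h : k ≤ l) {L : Language α} (hL : HasH k L) : HasH l L := by
  obtain ⟨e, he, rfl⟩ := hL
  exact ⟨e, he.trans h, rfl⟩

theorem HasH.zero (k : ℕ) : HasH k (0 : Language α) := ⟨.zero, by simp [starHeight], rfl⟩

theorem HasH.one (k : ℕ) : HasH k (1 : Language α) := ⟨.one, by simp [starHeight], rfl⟩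

theorem HasH.lit (k : ℕ) (a : α) : HasH k ({[a]} : Language α) := ⟨.lit a, by simp [starHeight], rfl⟩

theorem HasH.add {k : ℕ} {L M : Language α} (hL : HasH k L) (hM : HasH k M) : HasH k (L + M) := by
  obtain ⟨e, he, rfl⟩ := hL
  obtain ⟨f, hf, rfl⟩ := hM
  exact ⟨.add e f, by simp [starHeight, he, hf], rfl⟩

theorem HasH.mul {k : ℕ} {L M : Language α} (hL : HasH k L) (hM : HasH k M) : HasH k (L * M) := by
  obtain ⟨e, he, rfl⟩ := hL
  obtain ⟨f, hf, rfl⟩ := hM
  exact ⟨.mul e f, by simp [starHeight, he, hf], rfl⟩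

theorem HasH.compl {k : ℕ} {L : Language α} (hL : HasH k L) : HasH k (Lᶜ) := by
  obtain ⟨e, he, rfl⟩ := hL
  exact ⟨.compl e, by simpa [starHeight] using he, rfl⟩

theorem HasH.star {k : ℕ} {L : Language α} (hL : HasH k L) : HasH (k + 1) (KStar.kstar L) := by
  obtain ⟨e, he, rfl⟩ := hL
  exact ⟨.star e, by simpa [starHeight] using he, rfl⟩

/-- Congruence with respect to set equality, phrased with membership. -/
theorem HasH.congr {k : ℕ} {L M : Language α} (hL : HasH k L) (h : ∀ w, w ∈ L ↔ w ∈ M) :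
    HasH k M := by
  have : L = M := Language.ext h
  rwa [← this]

theorem HasH.top (k : ℕ) : HasH k (⊤ : Language α) := by
  have := (HasH.zero (α := α) k).compl
  refine this.congr ?_
  intro w
  constructor
  · intro _; trivial
  · intro _ h; exact h

theorem HasH.inter {k : ℕ} {L M : Language α} (hL : HasH k L) (hM : HasH k M) :
    HasH k (L ⊓ M) := by
  have := (hL.compl.add hM.compl).compl
  refine this.congr ?_
  intro w
  show (¬ (w ∈ Lᶜ ∨ w ∈ Mᶜ)) ↔ (w ∈ L ∧ w ∈ M)
  have h1 : w ∈ Lᶜ ↔ w ∉ L := Iff.rfl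
  have h2 : w ∈ Mᶜ ↔ w ∉ M := Iff.rfl
  rw [h1, h2]
  tauto

/-- Membership in a language built from a set-builder. -/
def ofPred (P : List α → Prop) : Language α := {w | P w}

@[simp] theorem mem_ofPred {P : List α → Prop} {w : List α} : w ∈ ofPred P ↔ P w := Iff.rfl

theorem HasH.of_iff {k : ℕ} {L : Language α} {P : List α → Prop} (hL : HasH k L)
    (h : ∀ w, w ∈ L ↔ P w) : HasH k (ofPred P) :=
  hL.congr (fun w => by rw [h w]; rfl)

/-- Finite unions. -/
theorem HasH.biUnion {k : ℕ} {ι : Type} (s : Finset ι) (L : ι → Language α)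
    (h : ∀ i ∈ s, HasH k (L i)) : HasH k (ofPred fun w => ∃ i ∈ s, w ∈ L i) := by
  classical
  induction s using Finset.induction_on with
  | empty =>
    refine (HasH.zero (α := α) k).congr ?_
    intro w
    simp [ofPred, Language.notMem_zero]
    exact fun hw => (Language.notMem_zero _ hw).elim
  | insert a s ha ih =>
    have h1 := h a (Finset.mem_insert_self a s)
    have h2 := ih (fun i hi => h i (Finset.mem_insert_of_mem hi))
    refine (h1.add h2).congr ?_
    intro w
    rw [Language.mem_add]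
    simp only [mem_ofPred, Finset.mem_insert]
    constructor
    · rintro (hw | ⟨i, hi, hw⟩)
      · exact ⟨a, Or.inl rfl, hw⟩
      · exact ⟨i, Or.inr hi, hw⟩
    · rintro ⟨i, rfl | hi, hw⟩
      · exact Or.inl hw
      · exact Or.inr ⟨i, hi, hw⟩

/-- Finite unions over a finite type. -/
theorem HasH.iUnion {k : ℕ} {ι : Type} [Finite ι] (L : ι → Language α)
    (h : ∀ i, HasH k (L i)) : HasH k (ofPred fun w => ∃ i, w ∈ L i) := by
  classical
  haveI := Fintype.ofFinite ι
  refine (HasH.biUnion Finset.univ L (fun i _ => h i)).congr ?_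
  intro w
  simp

/-- Finite intersections over a finite type. -/
theorem HasH.iInter {k : ℕ} {ι : Type} [Finite ι] (L : ι → Language α)
    (h : ∀ i, HasH k (L i)) : HasH k (ofPred fun w => ∀ i, w ∈ L i) := by
  have := (HasH.iUnion (fun i => (L i)ᶜ) (fun i => (h i).compl)).compl
  refine this.congr ?_
  intro w
  show (¬ ∃ i, w ∈ (L i)ᶜ) ↔ ∀ i, w ∈ L i
  have h1 : ∀ i, w ∈ (L i)ᶜ ↔ w ∉ L i := fun i => Iff.rfl
  simp only [h1]
  push_neg
  rfl

/-- Words all of whose letters satisfy a predicate: star free, by complement. -/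
theorem HasH.allLetters [Finite α] (k : ℕ) (P : α → Prop) :
    HasH k (ofPred fun w : List α => ∀ a ∈ w, P a) := by
  classical
  have hbad : HasH k (ofPred fun w : List α => ∃ a : {a // ¬ P a}, w ∈ ({[a.1]} : Language α)) :=
    HasH.iUnion _ (fun a => HasH.lit k a.1)
  have := ((HasH.top (α := α) k).mul (hbad.mul (HasH.top k))).compl
  refine this.congr ?_
  intro w
  show (w ∉ (⊤ : Language α) * ((ofPred fun w : List α => ∃ a : {a // ¬ P a},
    w ∈ ({[a.1]} : Language α)) * (⊤ : Language α))) ↔ _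
  simp only [Language.mem_mul, mem_ofPred]
  constructor
  · intro h a ha
    by_contra hPa
    obtain ⟨u, v, rfl⟩ := List.append_of_mem ha
    exact h ⟨u, trivial, a :: v, ⟨[a], ⟨⟨a, hPa⟩, rfl⟩, v, trivial, rfl⟩, rfl⟩
  · rintro h ⟨u, -, z, ⟨x, ⟨⟨a, ha⟩, hx⟩, v, -, rfl⟩, rfl⟩
    have hx' : x = [a] := hx
    subst hx'
    exact ha (h a (by simp))

end Vale.Agent.GSH
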