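import Vale.Agent.GSH.Line

/-!
Consequences of the voltage automaton: for a parity on letters, the number of occurrences of a
fixed letter at positions of a given running parity, modulo any integer, has height at most one.
-/

namespace Vale.Agent.GSH

section meas
variable {β X Y : Type}

/-- All fibres of `f` have star height at most one. -/
def Meas (f : List β → X) : Prop := ∀ x, HasH 1 (ofPred fun w => f w = x)

theorem Meas.pair {f : List β → X} {g : List β → Y} (hf : Meas f) (hg : Meas g) :
    Meas (fun w => (f w, g w)) := by
  rintro ⟨x, y⟩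
  refine ((hf x).inter (hg y)).congr ?_
  intro w
  show (f w = x ∧ g w = y) ↔ (f w, g w) = (x, y)
  simp

theorem Meas.pi {ι : Type} [Finite ι] {Z : ι → Type} {f : ∀ i, List β → Z i} (hf : ∀ i, Meas (f i)) :
    Meas (fun w i => f i w) := by
  intro x
  refine (HasH.iInter (fun i => ofPred fun w => f i w = x i) (fun i => hf i (x i))).congr ?_
  intro w
  show (∀ i, f i w = x i) ↔ (fun i => f i w) = x
  exact ⟨fun h => funext h, fun h i => congrFun h i⟩

theorem Meas.of_det [Finite X] {f : List β → X} {g : List β → Y} (hf : Meas f)
    (h : ∀ w w', f w = f w' → g w = g w') : Meas g := by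
  intro y
  have hp : ∀ x : {x : X // ∃ w, f w = x ∧ g w = y}, HasH 1 (ofPred fun w => f w = x.1) :=
    fun x => hf x.1
  refine (HasH.iUnion _ hp).congr ?_
  intro w
  constructor
  · rintro ⟨⟨x, w', hw', hg⟩, hfw⟩
    have : f w = f w' := by rw [hw']; exact hfw
    show g w = y
    rw [h w w' this, hg]
  · intro hw
    exact ⟨⟨f w, w, rfl, hw⟩, rfl⟩

end meas

section count
variable {β : Type} [DecidableEq β]

/-- The number of occurrences of `c` read at running parity `s`, starting from parity `b`. -/
def Cnt (odd : β → Bool) (c : β) (s : Bool) : Bool → List β → ℕ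
  | _, [] => 0
  | b, x :: w => (if x = c ∧ b = s then 1 else 0) + Cnt odd c s (xor b (odd x)) w

theorem Cnt_total (odd : β → Bool) (c : β) (b : Bool) (w : List β) :
    Cnt odd c false b w + Cnt odd c true b w = w.count c := by
  induction w generalizing b with
  | nil => rfl
  | cons x w ih =>
    simp only [Cnt, List.count_cons]
    have h := ih (xor b (odd x))
    generalize (xor b (odd x)) = b' at h ⊢
    by_cases hx : x = c
    · subst hx
      cases b <;> simp <;> omega
    · have hx' : (x == c) = false := by simpa using hx
      simp [hx, hx']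
      omega

/-- Weight: all odd letters count one. -/
def wtA (odd : β → Bool) (x : β) : ℤ := if odd x = true then 1 else 0

/-- Weight: all odd letters and the letter `c` count one. -/
def wtE (odd : β → Bool) (c x : β) : ℤ := if odd x = true then 1 else if x = c then 1 else 0

/-- Weight: the letter `c` counts one, the other odd letters count minus one. -/
def wtO (odd : β → Bool) (c x : β) : ℤ := if x = c then 1 else if odd x = true then -1 else 0

theorem wtA_ok (odd : β → Bool) : WtOK odd (wtA odd) := by
  intro x
  constructor
  · intro h; left; simp [wtA, h]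
  · intro h; left; simp [wtA, h]

theorem wtE_ok (odd : β → Bool) (c : β) : WtOK odd (wtE odd c) := by
  intro x
  constructor
  · intro h; left; simp [wtE, h]
  · intro h
    by_cases hx : x = c
    · right; simp [wtE, h, hx]
    · left; simp [wtE, h, hx]

theorem wtO_ok (odd : β → Bool) (c : β) : WtOK odd (wtO odd c) := by
  intro x
  constructor
  · intro h
    by_cases hx : x = c
    · left; simp [wtO, hx]
    · right; simp [wtO, h, hx]
  · intro h
    by_cases hx : x = c
    · right; simp [wtO, hx]
    · left; simp [wtO, h, hx]

theorem tf_of_pos (odd : β → Bool) (wt : β → ℤ) (h0 : ∀ x, 0 ≤ wt x)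
    (h1 : ∀ x, odd x = true → 1 ≤ wt x) (u : List β) (hu : par odd u = true) :
    (u.map wt).sum ≠ 0 := by
  have hnn : ∀ v : List β, 0 ≤ (v.map wt).sum := by
    intro v
    induction v with
    | nil => simp
    | cons x v ih =>
      simp only [List.map_cons, List.sum_cons]
      have := h0 x
      omega
  have hpos : ∀ v : List β, par odd v = true → 0 < (v.map wt).sum := by
    intro v
    induction v with
    | nil => simp [par]
    | cons x v ih =>
      intro hv
      simp only [List.map_cons, List.sum_cons]
      cases hx : odd x with
      | true =>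
        have := h1 x hx
        have := hnn v
        omega
      | false =>
        have hv' : par odd v = true := by simpa [par, hx] using hv
        have := ih hv'
        have := h0 x
        omega
  exact ne_of_gt (hpos u hu)

theorem tf_of_odd (odd : β → Bool) (wt : β → ℤ) (h1 : ∀ x, odd x = true → wt x = 1 ∨ wt x = -1)
    (h0 : ∀ x, odd x = false → wt x = 0) (u : List β) (hu : par odd u = true) :
    (u.map wt).sum ≠ 0 := by
  have hpar : ∀ v : List β, ((par odd v = true) → ∃ k : ℤ, (v.map wt).sum = 2 * k + 1) ∧
      ((par odd v = false) → ∃ k : ℤ, (v.map wt).sum = 2 * k) := by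
    intro v
    induction v with
    | nil => simp [par]
    | cons x v ih =>
      simp only [List.map_cons, List.sum_cons, par]
      cases hx : odd x with
      | true =>
        have hw := h1 x hx
        constructor
        · intro hv
          have hv' : par odd v = false := by simpa using hv
          obtain ⟨k, hk⟩ := ih.2 hv'
          rcases hw with hw | hw
          · exact ⟨k, by rw [hw, hk]; ring⟩
          · exact ⟨k - 1, by rw [hw, hk]; ring⟩
        · intro hv
          have hv' : par odd v = true := by simpa using hv
          obtain ⟨k, hk⟩ := ih.1 hv'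
          rcases hw with hw | hw
          · exact ⟨k + 1, by rw [hw, hk]; ring⟩
          · exact ⟨k, by rw [hw, hk]; ring⟩
      | false =>
        have hw := h0 x hx
        constructor
        · intro hv
          have hv' : par odd v = true := by simpa using hv
          obtain ⟨k, hk⟩ := ih.1 hv'
          exact ⟨k, by rw [hw, hk]; ring⟩
        · intro hv
          have hv' : par odd v = false := by simpa using hv
          obtain ⟨k, hk⟩ := ih.2 hv'
          exact ⟨k, by rw [hw, hk]; ring⟩
  obtain ⟨k, hk⟩ := (hpar u).1 hu
  omega

theorem Dl_even (odd : β → Bool) (c : β) (hc : odd c = false) (b : Bool) (w : List β) :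
    Dl odd (wtE odd c) b w - Dl odd (wtA odd) b w = Cnt odd c false b w := by
  induction w generalizing b with
  | nil => simp [Dl, Cnt]
  | cons x w ih =>
    simp only [Dl, Cnt]
    have := ih (xor b (odd x))
    by_cases hx : x = c
    · subst hx
      cases b <;> simp [dlt, hc, wtE, wtA] at this ⊢ <;> omega
    · cases b <;> cases hox : odd x <;> simp [dlt, hox, wtE, wtA, hx] at this ⊢ <;> omega

theorem Dl_odd (odd : β → Bool) (c : β) (hc : odd c = true) (b : Bool) (w : List β) :
    Dl odd (wtA odd) b w + Dl odd (wtO odd c) b w = 2 * Cnt odd c true b w := by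
  induction w generalizing b with
  | nil => simp [Dl, Cnt]
  | cons x w ih =>
    simp only [Dl, Cnt]
    have := ih (xor b (odd x))
    by_cases hx : x = c
    · subst hx
      cases b <;> simp [dlt, hc, wtO, wtA] at this ⊢ <;> omega
    · cases b <;> cases hox : odd x <;> simp [dlt, hox, wtO, wtA, hx] at this ⊢ <;> omega

variable [Finite β]

theorem Dl_meas (odd : β → Bool) (wt : β → ℤ) (hw : WtOK odd wt)
    (htf : ∀ u : List β, par odd u = true → (u.map wt).sum ≠ 0) (n : ℕ) [NeZero n] :
    Meas (fun w : List β => ((Dl odd wt false w : ℤ) : ZMod n)) := by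
  classical
  have h := fun q : ZMod n × Bool => voltage_hasH (N := n) odd wt hw htf q
  have h' : Meas (fun w : List β => (((Dl odd wt false w : ℤ) : ZMod n), par odd w)) := h
  exact Meas.of_det h' (fun w w' he => (Prod.mk.inj he).1)

theorem Cnt_even_meas (odd : β → Bool) (c : β) (hc : odd c = false) (n : ℕ) [NeZero n] :
    Meas (fun w : List β => ((Cnt odd c false false w : ℕ) : ZMod n)) := by
  classical
  have hA := Dl_meas odd (wtA odd) (wtA_ok odd)
    (tf_of_pos odd _ (fun x => by unfold wtA; split_ifs <;> simp)
      (fun x hx => by simp [wtA, hx])) n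
  have hE := Dl_meas odd (wtE odd c) (wtE_ok odd c)
    (tf_of_pos odd _ (fun x => by unfold wtE; split_ifs <;> simp)
      (fun x hx => by simp [wtE, hx])) n
  refine Meas.of_det (hE.pair hA) ?_
  intro w w' he
  obtain ⟨h1, h2⟩ := Prod.mk.inj he
  have e1 := Dl_even odd c hc false w
  have e2 := Dl_even odd c hc false w'
  have : ((Cnt odd c false false w : ℤ) : ZMod n) = ((Cnt odd c false false w' : ℤ) : ZMod n) := by
    rw [← e1, ← e2]
    push_cast
    rw [h1, h2]
  simpa using this

theorem count_meas (c : β) (n : ℕ) [NeZero n] :
    Meas (fun w : List β => ((w.count c : ℕ) : ZMod n)) := by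
  have h := Cnt_even_meas (fun _ : β => false) c rfl n
  refine Meas.of_det h ?_
  intro w w' he
  have htriv : ∀ w : List β, Cnt (fun _ : β => false) c true false w = 0 := by
    intro w
    induction w with
    | nil => rfl
    | cons x w ih =>
      simp only [Cnt, Bool.xor_false]
      rw [ih]
      simp
  have e1 := Cnt_total (fun _ : β => false) c false w
  have e2 := Cnt_total (fun _ : β => false) c false w'
  rw [htriv] at e1 e2
  simp only [add_zero] at e1 e2
  rw [← e1, ← e2]
  exact he

theorem Cnt_odd_meas (odd : β → Bool) (c : β) (hc : odd c = true) (n : ℕ) [NeZero n] :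
    Meas (fun w : List β => ((Cnt odd c true false w : ℕ) : ZMod n)) := by
  classical
  haveI : NeZero (2 * n) := ⟨by
    have := NeZero.ne n
    omega⟩
  have hA := Dl_meas odd (wtA odd) (wtA_ok odd)
    (tf_of_pos odd _ (fun x => by unfold wtA; split_ifs <;> simp)
      (fun x hx => by simp [wtA, hx])) (2 * n)
  have hO := Dl_meas odd (wtO odd c) (wtO_ok odd c)
    (tf_of_odd odd _ (fun x hx => by
        by_cases h : x = c
        · left; simp [wtO, h]
        · right; simp [wtO, h, hx])
      (fun x hx => by
        have : x ≠ c := by
          rintro rfl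
          rw [hc] at hx
          simp at hx
        simp [wtO, this, hx])) (2 * n)
  refine Meas.of_det (hA.pair hO) ?_
  intro w w' he
  obtain ⟨h1, h2⟩ := Prod.mk.inj he
  have e1 := Dl_odd odd c hc false w
  have e2 := Dl_odd odd c hc false w'
  have h3 : ((2 * (Cnt odd c true false w : ℤ) : ℤ) : ZMod (2 * n)) =
      ((2 * (Cnt odd c true false w' : ℤ) : ℤ) : ZMod (2 * n)) := by
    rw [← e1, ← e2]
    push_cast
    rw [h1, h2]
  rw [ZMod.intCast_eq_intCast_iff_dvd_sub] at h3
  have h4 : (n : ℤ) ∣ (Cnt odd c true false w' : ℤ) - (Cnt odd c true false w : ℤ) := by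
    have h5 : (2 * (n : ℤ)) ∣ 2 * ((Cnt odd c true false w' : ℤ) - (Cnt odd c true false w : ℤ)) := by
      have : (2 : ℤ) * ((Cnt odd c true false w' : ℤ) - (Cnt odd c true false w : ℤ)) =
        2 * (Cnt odd c true false w' : ℤ) - 2 * (Cnt odd c true false w : ℤ) := by ring
      rw [this]
      exact_mod_cast h3
    exact (mul_dvd_mul_iff_left (by norm_num)).mp h5
  have h6 := (ZMod.intCast_eq_intCast_iff_dvd_sub (Cnt odd c true false w : ℤ)
    (Cnt odd c true false w' : ℤ) n).mpr h4
  simpa using h6

/-- The main counting statement. -/
theorem Cnt_meas (odd : β → Bool) (c : β) (s : Bool) (n : ℕ) [NeZero n] :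
    Meas (fun w : List β => ((Cnt odd c s false w : ℕ) : ZMod n)) := by
  classical
  cases hc : odd c with
  | false =>
    have h0 := Cnt_even_meas odd c hc n
    cases s with
    | false => exact h0
    | true =>
      refine Meas.of_det (h0.pair (count_meas c n)) ?_
      intro w w' he
      obtain ⟨h1, h2⟩ := Prod.mk.inj he
      have e1 := Cnt_total odd c false w
      have e2 := Cnt_total odd c false w'
      have e3 : ((Cnt odd c false false w : ℕ) : ZMod n) + ((Cnt odd c true false w : ℕ) : ZMod n) =
          ((w.count c : ℕ) : ZMod n) := by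
        rw [← e1]; push_cast; rfl
      have e4 : ((Cnt odd c false false w' : ℕ) : ZMod n) + ((Cnt odd c true false w' : ℕ) : ZMod n) =
          ((w'.count c : ℕ) : ZMod n) := by
        rw [← e2]; push_cast; rfl
      rw [h1, h2, ← e4] at e3
      exact add_left_cancel e3
  | true =>
    have h0 := Cnt_odd_meas odd c hc n
    cases s with
    | true => exact h0
    | false =>
      refine Meas.of_det (h0.pair (count_meas c n)) ?_
      intro w w' he
      obtain ⟨h1, h2⟩ := Prod.mk.inj he
      have e1 := Cnt_total odd c false w
      have e2 := Cnt_total odd c false w'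
      have e3 : ((Cnt odd c false false w : ℕ) : ZMod n) + ((Cnt odd c true false w : ℕ) : ZMod n) =
          ((w.count c : ℕ) : ZMod n) := by
        rw [← e1]; push_cast; rfl
      have e4 : ((Cnt odd c false false w' : ℕ) : ZMod n) + ((Cnt odd c true false w' : ℕ) : ZMod n) =
          ((w'.count c : ℕ) : ZMod n) := by
        rw [← e2]; push_cast; rfl
      rw [h1, h2, ← e4] at e3
      exact add_right_cancel e3

end count

end Vale.Agent.GSH
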