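import Mathlib

/-!
Generalized regular expressions over an alphabet, their languages and their star height,
exactly as in the generalized star-height problem: constants `0`, `1`, letters, union,
concatenation, complement (taken in the set of all words) and Kleene star.
-/

namespace Vale.Agent.GSH

/-- Generalized regular expressions over the alphabet `α`. -/
inductive GenRE (α : Type) : Type
  | zero : GenRE α
  | one : GenRE α
  | lit : α → GenRE α
  | add : GenRE α → GenRE α → GenRE α
  | mul : GenRE α → GenRE α → GenRE α
  | compl : GenRE α → GenRE α
  | star : GenRE α → GenRE α

namespace GenRE

variable {α : Type}

/-- The language denoted by a generalized regular expression. -/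
def lang : GenRE α → Language α
  | zero => 0
  | one => 1
  | lit a => {[a]}
  | add p q => lang p + lang q
  | mul p q => lang p * lang q
  | compl p => (lang p)ᶜ
  | star p => KStar.kstar (lang p)

/-- The star height: the maximal nesting depth of Kleene stars; complement costs nothing. -/
def starHeight : GenRE α → ℕ
  | zero => 0
  | one => 0
  | lit _ => 0
  | add p q => max (starHeight p) (starHeight q)
  | mul p q => max (starHeight p) (starHeight q)
  | compl p => starHeight p
  | star p => starHeight p + 1

end GenRE

end Vale.Agent.GSH
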