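import Vale.Agent.GSH.Count

/-!
Assembly: finite groups whose squares commute.
-/

namespace Vale.Agent.GSH

open scoped BigOperators

section fourier
variable {β A : Type} [DecidableEq β] [AddCommGroup A] [DecidableEq A]

/-- The number of occurrences of `c` read when the running value is `t`, starting from `s`. -/
def CntA (τ : β → A) (c : β) (t : A) : A → List β → ℕ
  | _, [] => 0
  | s, x :: w => (if x = c ∧ s = t then 1 else 0) + CntA τ c t (s + τ x) w

theorem CntA_append (τ : β → A) (c : β) (t s : A) (w : List β) (x : β) :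
    CntA τ c t s (w ++ [x]) =
      CntA τ c t s w + (if x = c ∧ s + (w.map τ).sum = t then 1 else 0) := by
  induction w generalizing s with
  | nil => simp [CntA]
  | cons a w ih =>
    simp only [List.cons_append, CntA, ih, List.map_cons, List.sum_cons, add_assoc]

open Classical in
/-- The sign bit of a character at a point. -/
noncomputable def bit (ψ : AddChar A ℂ) (a : A) : Bool := decide (ψ a ≠ 1)

variable (hA : ∀ a : A, a + a = 0)

include hA

theorem psi_cases (ψ : AddChar A ℂ) (a : A) : ψ a = if bit ψ a = true then -1 else 1 := by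
  classical
  have h1 : ψ a * ψ a = 1 := by
    rw [← AddChar.map_add_eq_mul, hA a, AddChar.map_zero_eq_one]
  by_cases h : ψ a = 1
  · simp [bit, h]
  · have : ψ a = -1 := by
      have h2 : (ψ a - 1) * (ψ a + 1) = 0 := by ring_nf; rw [sq]; rw [h1]; ring
      rcases mul_eq_zero.mp h2 with h3 | h3
      · exact (h (sub_eq_zero.mp h3)).elim
      · exact eq_neg_of_add_eq_zero_left h3
    simp [bit, h, this]

theorem bit_add (ψ : AddChar A ℂ) (a b : A) : bit ψ (a + b) = xor (bit ψ a) (bit ψ b) := by
  have h1 := psi_cases hA ψ a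
  have h2 := psi_cases hA ψ b
  have h3 := psi_cases hA ψ (a + b)
  rw [AddChar.map_add_eq_mul, h1, h2] at h3
  have hne : (1 : ℂ) ≠ -1 := by norm_num
  cases h4 : bit ψ a <;> cases h5 : bit ψ b <;> cases h6 : bit ψ (a + b) <;>
    simp [h4, h5, h6] at h3 ⊢ <;> first | exact hne h3 | exact hne h3.symm | skip

omit hA in
theorem bit_zero (ψ : AddChar A ℂ) : bit ψ (0 : A) = false := by
  simp [bit, AddChar.map_zero_eq_one]

variable [Fintype A]

theorem fourier_complex (τ : β → A) (c : β) (t : A) (w : List β) (s : A) :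
    (Fintype.card A : ℂ) * (CntA τ c t s w : ℂ) =
      ∑ ψ : AddChar A ℂ, ψ t * ((Cnt (fun x => bit ψ (τ x)) c false (bit ψ s) w : ℂ) -
        (Cnt (fun x => bit ψ (τ x)) c true (bit ψ s) w : ℂ)) := by
  classical
  induction w generalizing s with
  | nil => simp [CntA, Cnt]
  | cons x w ih =>
    simp only [CntA, Cnt]
    have hstep : ∀ ψ : AddChar A ℂ, bit ψ (s + τ x) = xor (bit ψ s) (bit ψ (τ x)) :=
      fun ψ => bit_add hA ψ s (τ x)
    simp only [← hstep]
    push_cast
    rw [mul_add, ih (s + τ x)]
    have hone : ∀ ψ : AddChar A ℂ,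
        ψ t * (((if x = c ∧ bit ψ s = false then (1 : ℂ) else 0) +
            (Cnt (fun x => bit ψ (τ x)) c false (bit ψ (s + τ x)) w : ℂ)) -
          ((if x = c ∧ bit ψ s = true then (1 : ℂ) else 0) +
            (Cnt (fun x => bit ψ (τ x)) c true (bit ψ (s + τ x)) w : ℂ))) =
        (if x = c then ψ (t + s) else 0) + ψ t *
          ((Cnt (fun x => bit ψ (τ x)) c false (bit ψ (s + τ x)) w : ℂ) -
            (Cnt (fun x => bit ψ (τ x)) c true (bit ψ (s + τ x)) w : ℂ)) := by
      intro ψ
      by_cases hx : x = c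
      · rw [AddChar.map_add_eq_mul, psi_cases hA ψ s]
        cases hb : bit ψ s <;> simp [hx] <;> ring
      · simp [hx]
    rw [Finset.sum_congr rfl (fun ψ _ => hone ψ), Finset.sum_add_distrib]
    congr 1
    by_cases hx : x = c
    · simp only [hx, true_and, if_true]
      rw [AddChar.sum_apply_eq_ite]
      have hts : (t + s = 0) ↔ (s = t) := by
        constructor
        · intro h
          have h2 : t + s = t + t := by rw [h, hA t]
          exact add_left_cancel h2
        · rintro rfl
          exact hA _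
      by_cases h : s = t
      · simp [h, hA t]
      · simp [h, mt hts.mp h]
    · simp [hx]

/-- The same identity over the integers. -/
theorem fourier_int (τ : β → A) (c : β) (t : A) (w : List β) (s : A) :
    (Fintype.card A : ℤ) * (CntA τ c t s w : ℤ) =
      ∑ ψ : AddChar A ℂ, (if bit ψ t = true then (-1 : ℤ) else 1) *
        ((Cnt (fun x => bit ψ (τ x)) c false (bit ψ s) w : ℤ) -
        (Cnt (fun x => bit ψ (τ x)) c true (bit ψ s) w : ℤ)) := by
  have h := fourier_complex hA τ c t w s
  have hinj : Function.Injective (Int.cast : ℤ → ℂ) := Int.cast_injective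
  apply hinj
  push_cast
  rw [h]
  refine Finset.sum_congr rfl (fun ψ _ => ?_)
  rw [psi_cases hA ψ t]

/-- The running value count is determined by parity counts modulo a multiple. -/
theorem CntA_det (τ : β → A) (c : β) (t : A) (n : ℕ) (hn : n ≠ 0) (w w' : List β)
    (h : ∀ (ψ : AddChar A ℂ) (s' : Bool),
      ((Cnt (fun x => bit ψ (τ x)) c s' false w : ℕ) : ZMod (Fintype.card A * n)) =
      ((Cnt (fun x => bit ψ (τ x)) c s' false w' : ℕ) : ZMod (Fintype.card A * n))) :
    ((CntA τ c t 0 w : ℕ) : ZMod n) = ((CntA τ c t 0 w' : ℕ) : ZMod n) := by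
  have h1 := fourier_int hA τ c t w 0
  have h2 := fourier_int hA τ c t w' 0
  simp only [bit_zero] at h1 h2
  have h3 : (((Fintype.card A : ℤ) * (CntA τ c t 0 w : ℤ) : ℤ) : ZMod (Fintype.card A * n)) =
      (((Fintype.card A : ℤ) * (CntA τ c t 0 w' : ℤ) : ℤ) : ZMod (Fintype.card A * n)) := by
    rw [h1, h2]
    push_cast
    refine Finset.sum_congr rfl (fun ψ _ => ?_)
    rw [h ψ false, h ψ true]
  rw [ZMod.intCast_eq_intCast_iff_dvd_sub] at h3
  have hc : (Fintype.card A : ℤ) ≠ 0 := by
    have : Fintype.card A ≠ 0 := Fintype.card_ne_zero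
    exact_mod_cast this
  have h4 : (n : ℤ) ∣ (CntA τ c t 0 w' : ℤ) - (CntA τ c t 0 w : ℤ) := by
    have h5 : ((Fintype.card A : ℤ) * (n : ℤ)) ∣
        (Fintype.card A : ℤ) * ((CntA τ c t 0 w' : ℤ) - (CntA τ c t 0 w : ℤ)) := by
      have e : (Fintype.card A : ℤ) * ((CntA τ c t 0 w' : ℤ) - (CntA τ c t 0 w : ℤ)) =
          (Fintype.card A : ℤ) * (CntA τ c t 0 w' : ℤ) -
            (Fintype.card A : ℤ) * (CntA τ c t 0 w : ℤ) := by ring
      rw [e]
      exact_mod_cast h3
    exact (mul_dvd_mul_iff_left hc).mp h5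
  have h6 := (ZMod.intCast_eq_intCast_iff_dvd_sub (CntA τ c t 0 w : ℤ)
    (CntA τ c t 0 w' : ℤ) n).mpr h4
  simpa using h6

theorem CntA_meas [Finite β] (τ : β → A) (c : β) (t : A) (n : ℕ) [NeZero n] :
    Meas (fun w : List β => ((CntA τ c t 0 w : ℕ) : ZMod n)) := by
  classical
  haveI : NeZero (Fintype.card A * n) := ⟨mul_ne_zero Fintype.card_ne_zero (NeZero.ne n)⟩
  have h1 : ∀ p : AddChar A ℂ × Bool, Meas (fun w : List β =>
      ((Cnt (fun x => bit p.1 (τ x)) c p.2 false w : ℕ) : ZMod (Fintype.card A * n))) :=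
    fun p => Cnt_meas _ c p.2 _
  refine Meas.of_det (Meas.pi h1) ?_
  intro w w' he
  apply CntA_det hA τ c t n (NeZero.ne n) w w'
  intro ψ s'
  exact congrFun he (ψ, s')

end fourier

section assemble
variable {G α A : Type} [Group G] [Finite G] [DecidableEq α] [Finite α]
  [AddCommGroup A] [DecidableEq A] [Fintype A]

/-- The main determination: a word's value in `G` is determined by the parity of letter counts
and the running value counts modulo `Nat.card V`. -/
theorem ev_det (V : Subgroup G) (hV : ∀ a ∈ V, ∀ b ∈ V, a * b = b * a)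
    (π : G → A) (hπ : ∀ g h, π (g * h) = π g + π h) (hker : ∀ g, π g = 0 → g ∈ V)
    (σ : A → G) (hσ : ∀ a, π (σ a) = a) (f : α → G)
    (w w' : List α)
    (hS : (w.map (fun x => π (f x))).sum = (w'.map (fun x => π (f x))).sum)
    (hc : ∀ (t : A) (c : α), ((CntA (fun x => π (f x)) c t 0 w : ℕ) : ZMod (Nat.card V)) =
      ((CntA (fun x => π (f x)) c t 0 w' : ℕ) : ZMod (Nat.card V))) :
    ev f w = ev f w' := by
  classical
  haveI := Fintype.ofFinite α
  set τ : α → A := fun x => π (f x) with hτ
  have hπ1 : π 1 = 0 := by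
    have := hπ 1 1
    simpa using this
  have hπinv : ∀ g, π g⁻¹ = - π g := by
    intro g
    have := hπ g g⁻¹
    rw [mul_inv_cancel, hπ1] at this
    exact (neg_eq_of_add_eq_zero_right this.symm).symm
  have hevπ : ∀ u : List α, π (ev f u) = (u.map τ).sum := by
    intro u
    induction u with
    | nil => simpa using hπ1
    | cons a u ih => rw [ev_cons, hπ, ih]; simp [hτ]
  letI : CommGroup V :=
    { (inferInstance : Group V) with
      mul_comm := fun a b => Subtype.ext (hV a.1 a.2 b.1 b.2) }
  let κ : A × α → V := fun p => ⟨σ p.1 * f p.2 * (σ (p.1 + τ p.2))⁻¹, hker _ (by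
    rw [hπ, hπ, hπinv, hσ, hσ]
    simp [hτ])⟩
  let Ψ : List α → G := fun u => σ 0 * ev f u * (σ (u.map τ).sum)⁻¹
  have hΨ : ∀ u : List α, Ψ u = ((∏ p : A × α, κ p ^ (CntA τ p.2 p.1 0 u) : V) : G) := by
    intro u
    induction u using List.reverseRecOn with
    | nil =>
      simp [Ψ, CntA]
    | append_singleton u x ih =>
      have h1 : (∏ p : A × α, κ p ^ (CntA τ p.2 p.1 0 (u ++ [x]))) =
          (∏ p : A × α, κ p ^ (CntA τ p.2 p.1 0 u)) * κ ((u.map τ).sum, x) := by
        have h2 : ∀ p : A × α, κ p ^ (CntA τ p.2 p.1 0 (u ++ [x])) =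
            κ p ^ (CntA τ p.2 p.1 0 u) * (if p = ((u.map τ).sum, x) then κ p else 1) := by
          intro p
          rw [CntA_append, pow_add]
          congr 1
          by_cases hp : p = ((u.map τ).sum, x)
          · subst hp
            simp
          · have : ¬ (x = p.2 ∧ 0 + (u.map τ).sum = p.1) := by
              rintro ⟨rfl, h⟩
              apply hp
              rw [zero_add] at h
              exact Prod.ext h.symm rfl
            rw [if_neg this, if_neg hp, pow_zero]
        simp only [h2]
        rw [Finset.prod_mul_distrib]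
        congr 1
        simp
      rw [h1, Subgroup.coe_mul, ← ih]
      show σ 0 * ev f (u ++ [x]) * (σ ((u ++ [x]).map τ).sum)⁻¹ =
        σ 0 * ev f u * (σ (u.map τ).sum)⁻¹ *
          (σ (u.map τ).sum * f x * (σ ((u.map τ).sum + τ x))⁻¹)
      rw [ev_append]
      simp [mul_assoc]
  have hcard : Nat.card V ≠ 0 := Nat.card_pos.ne'
  have hpow : ∀ (k : V) (a b : ℕ), ((a : ℕ) : ZMod (Nat.card V)) = ((b : ℕ) : ZMod (Nat.card V)) →
      k ^ a = k ^ b := by
    intro k a b hab
    have h1 : k ^ Nat.card V = 1 := pow_card_eq_one'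
    rw [ZMod.natCast_eq_natCast_iff'] at hab
    rw [pow_eq_pow_mod a h1, pow_eq_pow_mod b h1, hab]
  have hprod : (∏ p : A × α, κ p ^ (CntA τ p.2 p.1 0 w)) =
      (∏ p : A × α, κ p ^ (CntA τ p.2 p.1 0 w')) :=
    Finset.prod_congr rfl (fun p _ => hpow _ _ _ (hc p.1 p.2))
  have hfinal : Ψ w = Ψ w' := by
    rw [hΨ, hΨ, hprod]
  have hfinal' : σ 0 * ev f w * (σ (w.map τ).sum)⁻¹ = σ 0 * ev f w' * (σ (w'.map τ).sum)⁻¹ := hfinal
  rw [show (w.map τ).sum = (w'.map τ).sum from hS] at hfinal'
  have := mul_right_cancel hfinal'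
  exact mul_left_cancel this

/-- Sums of `π ∘ f` along a word are determined by the letter counts modulo two. -/
theorem sum_det (τ : α → A) (hA : ∀ a : A, a + a = 0) (w w' : List α)
    (h : ∀ x, ((w.count x : ℕ) : ZMod 2) = ((w'.count x : ℕ) : ZMod 2)) :
    (w.map τ).sum = (w'.map τ).sum := by
  classical
  haveI := Fintype.ofFinite α
  have hS : ∀ u : List α, (u.map τ).sum = ∑ x : α, (u.count x) • τ x := by
    intro u
    induction u with
    | nil => simp
    | cons a u ih =>
      simp only [List.map_cons, List.sum_cons, ih, List.count_cons, add_nsmul]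
      rw [Finset.sum_add_distrib, add_comm]
      congr 1
      rw [Finset.sum_eq_single a]
      · simp
      · intro b _ hb
        have : (a == b) = false := by
          simp only [beq_eq_false_iff_ne, ne_eq]
          exact fun h => hb h.symm
        simp [this]
      · simp
  have hmod : ∀ (a b : ℕ) (y : A), ((a : ℕ) : ZMod 2) = ((b : ℕ) : ZMod 2) → a • y = b • y := by
    intro a b y hab
    have h2 : ∀ n : ℕ, n • y = (n % 2) • y := by
      intro n
      conv_lhs => rw [← Nat.mod_add_div n 2]
      rw [add_nsmul, mul_nsmul]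
      have : 2 • y = 0 := by rw [two_nsmul]; exact hA y
      simp [this]
    rw [ZMod.natCast_eq_natCast_iff'] at hab
    rw [h2 a, h2 b, hab]
  rw [hS, hS]
  exact Finset.sum_congr rfl (fun x _ => hmod _ _ _ (h x))

end assemble

/-- Every language recognized by a finite group with a commutative normal subgroup
whose quotient has exponent two has star height at most one, for a word map `ev f`. -/
theorem ev_meas {G α A : Type} [Group G] [Finite G] [Finite α]
    [AddCommGroup A] [Finite A] (hA : ∀ a : A, a + a = 0)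
    (V : Subgroup G) (hV : ∀ a ∈ V, ∀ b ∈ V, a * b = b * a)
    (π : G → A) (hπ : ∀ g h, π (g * h) = π g + π h) (hker : ∀ g, π g = 0 → g ∈ V)
    (σ : A → G) (hσ : ∀ a, π (σ a) = a) (f : α → G) :
    Meas (fun w : List α => ev f w) := by
  classical
  haveI := Fintype.ofFinite A
  haveI : NeZero (Nat.card V) := ⟨Nat.card_pos.ne'⟩
  have h1 : Meas (fun w : List α => fun x : α => ((w.count x : ℕ) : ZMod 2)) :=
    Meas.pi (fun x => count_meas x 2)
  have h2 : Meas (fun w : List α => fun p : A × α =>
      ((CntA (fun x => π (f x)) p.2 p.1 0 w : ℕ) : ZMod (Nat.card V))) :=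
    Meas.pi (fun p => CntA_meas hA _ p.2 p.1 _)
  refine Meas.of_det (h1.pair h2) ?_
  intro w w' he
  obtain ⟨h3, h4⟩ := Prod.mk.inj he
  refine ev_det V hV π hπ hker σ hσ f w w' ?_ ?_
  · exact sum_det _ hA w w' (fun x => congrFun h3 x)
  · intro t c
    exact congrFun h4 (t, c)

/-- The case of groups whose squares commute. -/
theorem squares_meas {G α : Type} [Group G] [Finite G] [Finite α]
    (hG : ∀ x y : G, x ^ 2 * y ^ 2 = y ^ 2 * x ^ 2) (f : α → G) :
    Meas (fun w : List α => ev f w) := by
  classical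
  let S : Set G := Set.range (fun x : G => x ^ 2)
  let V : Subgroup G := Subgroup.closure S
  have hS : ∀ a ∈ S, ∀ b ∈ S, a * b = b * a := by
    rintro _ ⟨x, rfl⟩ _ ⟨y, rfl⟩
    exact hG x y
  have hV : ∀ a ∈ V, ∀ b ∈ V, a * b = b * a := by
    intro a ha b hb
    have h1 : S ≤ Subgroup.centralizer S := by
      intro s hs
      rw [SetLike.mem_coe, Subgroup.mem_centralizer_iff]
      intro t ht
      exact hS t ht s hs
    have h2 : V ≤ Subgroup.centralizer S := (Subgroup.closure_le _).mpr h1
    have h3 : S ≤ Subgroup.centralizer ({a} : Set G) := by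
      intro s hs
      rw [SetLike.mem_coe, Subgroup.mem_centralizer_iff]
      intro t ht
      have ht' : t = a := ht
      subst ht'
      have := (Subgroup.mem_centralizer_iff.mp (h2 ha)) s hs
      exact this.symm
    have h4 : V ≤ Subgroup.centralizer ({a} : Set G) := (Subgroup.closure_le _).mpr h3
    exact (Subgroup.mem_centralizer_iff.mp (h4 hb)) a rfl
  haveI hnorm : V.Normal := by
    constructor
    intro n hn g
    have : V ≤ V.comap (MulAut.conj g).toMonoidHom := by
      refine (Subgroup.closure_le _).mpr ?_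
      rintro _ ⟨x, rfl⟩
      show g * x ^ 2 * g⁻¹ ∈ V
      apply Subgroup.subset_closure
      exact ⟨g * x * g⁻¹, conj_pow⟩
    exact this hn
  have hsq : ∀ g : G, g ^ 2 ∈ V := fun g => Subgroup.subset_closure ⟨g, rfl⟩
  letI : CommGroup (G ⧸ V) :=
    { (QuotientGroup.Quotient.group V) with
      mul_comm := by
        have hq : ∀ a : G ⧸ V, a * a = 1 := by
          intro a
          induction a using QuotientGroup.induction_on with
          | H g =>
            rw [← QuotientGroup.mk_mul, ← sq, QuotientGroup.eq_one_iff]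
            exact hsq g
        intro a b
        have h1 := hq (a * b)
        have h2 := hq a
        have h3 := hq b
        calc a * b = a * (a * b * (a * b)) * b := by rw [h1]; simp
          _ = (a * a) * (b * a) * (b * b) := by group
          _ = b * a := by rw [h2, h3]; simp }
  refine ev_meas (A := Additive (G ⧸ V)) ?_ V hV
    (fun g => Additive.ofMul (g : G ⧸ V)) (fun g h => rfl) ?_
    (Function.surjInv (f := fun g : G => Additive.ofMul (g : G ⧸ V)) ?_) ?_ f
  · intro a
    induction a using Additive.rec with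
    | ofMul a =>
      induction a using QuotientGroup.induction_on with
      | H g =>
        show Additive.ofMul ((g : G ⧸ V) * (g : G ⧸ V)) = 0
        rw [← QuotientGroup.mk_mul, ← sq]
        have : ((g ^ 2 : G) : G ⧸ V) = 1 := (QuotientGroup.eq_one_iff _).mpr (hsq g)
        rw [this]
        rfl
  · intro g hg
    exact (QuotientGroup.eq_one_iff g).mp hg
  · intro a
    induction a using Additive.rec with
    | ofMul a =>
      induction a using QuotientGroup.induction_on with
      | H g => exact ⟨g, rfl⟩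
  · intro a
    exact Function.surjInv_eq _ a

end Vale.Agent.GSH
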