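import Vale.Agent.GSH.Sch

/-!
The hub lemma: if a finite deterministic automaton has a state `y` such that the partial automaton
obtained by cutting `y` has an aperiodic transition monoid, then the languages `{w | y · w = q}`
have generalized star height at most one.
-/

namespace Vale.Agent.GSH

section iter
variable {X : Type}

theorem iter_stable [Finite X] (g : X → X) (h : ∀ x d, 0 < d → g^[d] x = x → g x = x) :
    ∃ k : ℕ, g^[k] = g^[k + 1] := by
  classical
  haveI := Fintype.ofFinite X
  refine ⟨Fintype.card X, ?_⟩
  funext x
  have hni : ¬ Function.Injective (fun i : Fin (Fintype.card X + 1) => g^[i.1] x) := by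
    intro hi
    have := Fintype.card_le_of_injective _ hi
    simp at this
  simp only [Function.Injective, not_forall] at hni
  obtain ⟨i, j, hij, hne⟩ := hni
  -- wlog i < j
  have key : ∀ a b : ℕ, a < b → b ≤ Fintype.card X → g^[a] x = g^[b] x →
      g^[Fintype.card X] x = g^[Fintype.card X + 1] x := by
    intro a b hab hb he
    have hd : g^[b - a] (g^[a] x) = g^[a] x := by
      rw [← Function.iterate_add_apply, Nat.sub_add_cancel hab.le, he]
    have hz := h (g^[a] x) (b - a) (Nat.sub_pos_of_lt hab) hd
    have hfix : ∀ n, g^[n] (g^[a] x) = g^[a] x := by
      intro n
      exact Function.iterate_fixed hz n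
    have e1 : g^[Fintype.card X] x = g^[a] x := by
      have : Fintype.card X = (Fintype.card X - a) + a := by omega
      rw [this, Function.iterate_add_apply, hfix]
    have e2 : g^[Fintype.card X + 1] x = g^[a] x := by
      have : Fintype.card X + 1 = (Fintype.card X + 1 - a) + a := by omega
      rw [this, Function.iterate_add_apply, hfix]
    rw [e1, e2]
  rcases lt_or_gt_of_ne (fun h => hne (Fin.ext h) : i.1 ≠ j.1) with hlt | hlt
  · exact key i.1 j.1 hlt (by omega) hij
  · exact key j.1 i.1 hlt (by omega) hij.symm

end iter

/-- Self-maps of `X`, multiplied so that the left factor is applied first. -/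
def REnd (X : Type) : Type := X → X

instance (X : Type) [Finite X] : Finite (REnd X) := by
  unfold REnd
  infer_instance

instance (X : Type) : Monoid (REnd X) where
  mul f g := fun x => g (f x)
  one := fun x => x
  mul_assoc _ _ _ := rfl
  one_mul _ := rfl
  mul_one _ := rfl

theorem REnd.mul_apply {X : Type} (f g : REnd X) (x : X) : (f * g) x = g (f x) := rfl

theorem REnd.pow_apply {X : Type} (g : REnd X) (k : ℕ) (x : X) : (g ^ k) x = g^[k] x := by
  induction k with
  | zero => rfl
  | succ k ih =>
    rw [pow_succ, REnd.mul_apply, ih]
    exact (Function.iterate_succ_apply' (f := (g : X → X)) k x).symm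

section hub
variable {Q β : Type} (step : Q → β → Q)

/-- The run of a deterministic automaton. -/
def run (q : Q) (w : List β) : Q := w.foldl step q

@[simp] theorem run_nil (q : Q) : run step q [] = q := rfl
@[simp] theorem run_cons (q : Q) (a : β) (w : List β) :
    run step q (a :: w) = run step (step q a) w := rfl

theorem run_append (q : Q) (u v : List β) : run step q (u ++ v) = run step (run step q u) v := by
  simp [run, List.foldl_append]

variable [DecidableEq Q] (y : Q)

/-- One step of the automaton with the state `y` cut: entering `y` kills the run. -/
def pstep (o : Option Q) (x : β) : Option Q :=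
  match o with
  | none => none
  | some q => if step q x = y then none else some (step q x)

/-- The run of the cut automaton. -/
def prun (o : Option Q) (w : List β) : Option Q := w.foldl (pstep step y) o

@[simp] theorem prun_nil (o : Option Q) : prun step y o [] = o := rfl
@[simp] theorem prun_cons (o : Option Q) (a : β) (w : List β) :
    prun step y o (a :: w) = prun step y (pstep step y o a) w := rfl

theorem prun_append (o : Option Q) (u v : List β) :
    prun step y o (u ++ v) = prun step y (prun step y o u) v := by
  simp [prun, List.foldl_append]

@[simp] theorem prun_none (w : List β) : prun step y none w = none := by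
  induction w with
  | nil => rfl
  | cons a w ih => simpa [pstep] using ih

theorem prun_some_run {q q' : Q} {w : List β} (h : prun step y (some q) w = some q') :
    run step q w = q' := by
  induction w generalizing q with
  | nil =>
    simpa using h
  | cons a w ih =>
    simp only [prun_cons, pstep] at h
    split_ifs at h with hs
    · simp at h
    · exact ih h

/-- The aperiodicity hypothesis on the cut automaton: periodic points of a word are fixed. -/
def CutAperiodic : Prop :=
  ∀ (u : List β) (q : Q) (d : ℕ), 0 < d → (fun o => prun step y o u)^[d] (some q) = some q →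
    prun step y (some q) u = some q

variable [Finite Q] [Finite β]

theorem prun_hasH (hA : CutAperiodic step y) (q : Q) (o : Option Q) :
    HasH 0 (ofPred fun w : List β => prun step y (some q) w = o) := by
  classical
  let f : β → REnd (Option Q) := fun x => fun o => pstep step y o x
  have hev : ∀ (u : List β) (o : Option Q), (ev f u : REnd (Option Q)) o = prun step y o u := by
    intro u
    induction u with
    | nil => intro o; rfl
    | cons a u ih =>
      intro o
      rw [ev_cons, REnd.mul_apply, ih]
      rfl
  have hM : ∀ u : List β, ∃ k : ℕ, (ev f u) ^ k = (ev f u) ^ (k + 1) := by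
    intro u
    have hstable : ∃ k : ℕ, (fun o => prun step y o u)^[k] = (fun o => prun step y o u)^[k + 1] := by
      apply iter_stable
      intro x d hd hx
      cases x with
      | none => simp
      | some q => exact hA u q d hd hx
    obtain ⟨k, hk⟩ := hstable
    refine ⟨k, ?_⟩
    funext x
    rw [REnd.pow_apply, REnd.pow_apply]
    have hg : (ev f u : REnd (Option Q)) = (fun o => prun step y o u) := funext (hev u)
    rw [hg]
    exact congrFun hk x
  have hm : ∀ m : {m : REnd (Option Q) // m (some q) = o},
      HasH 0 (ofPred fun w : List β => ev f w = m.1) := fun m => sch f hM m.1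
  refine (HasH.iUnion _ hm).congr ?_
  intro w
  constructor
  · rintro ⟨m, hm'⟩
    have h1 : ev f w = m.1 := hm'
    have h2 := m.2
    rw [← h1, hev] at h2
    exact h2
  · intro h
    refine ⟨⟨ev f w, ?_⟩, rfl⟩
    rw [hev]
    exact h

/-- Hub lemma. -/
theorem hub_hasH (hA : CutAperiodic step y) (q : Q) :
    HasH 1 (ofPred fun w : List β => run step y w = q) := by
  classical
  haveI := Fintype.ofFinite Q
  haveI := Fintype.ofFinite β
  -- first returns
  let F : Language β := ofPred fun w => ∃ p : Q × β, step p.1 p.2 = y ∧
    w ∈ (ofPred fun v : List β => prun step y (some y) v = some p.1) * ({[p.2]} : Language β)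
  have hF : HasH 0 F := by
    have hp : ∀ p : {p : Q × β // step p.1 p.2 = y}, HasH 0
        ((ofPred fun v : List β => prun step y (some y) v = some p.1.1) *
          ({[p.1.2]} : Language β)) := by
      intro p
      exact (prun_hasH step y hA y (some p.1.1)).mul (HasH.lit 0 p.1.2)
    refine (HasH.iUnion _ hp).congr ?_
    intro w
    constructor
    · rintro ⟨p, hw⟩
      exact ⟨p.1, p.2, hw⟩
    · rintro ⟨p, hp', hw⟩
      exact ⟨⟨p, hp'⟩, hw⟩
  have hG : HasH 0 (ofPred fun v : List β => prun step y (some y) v = some q) :=
    prun_hasH step y hA y (some q)
  have hmain := hF.star.mul (hG.mono (Nat.zero_le 1))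
  refine hmain.congr ?_
  intro w
  show w ∈ KStar.kstar F * (ofPred fun v : List β => prun step y (some y) v = some q) ↔
    run step y w = q
  constructor
  · intro hw
    obtain ⟨a, ha, g, hg, rfl⟩ := Language.mem_mul.mp hw
    have h1 : run step y a = y := by
      obtain ⟨L, rfl, hL⟩ := Language.mem_kstar.mp ha
      induction L with
      | nil => rfl
      | cons t L ih =>
        rw [List.flatten_cons, run_append]
        obtain ⟨p, hp, hw'⟩ := hL t (by simp)
        obtain ⟨v, hv, x, hx, rfl⟩ := Language.mem_mul.mp hw'
        have hx' : x = [p.2] := hx
        subst hx'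
        have hv' : run step y v = p.1 := prun_some_run step y hv
        have : run step y (v ++ [p.2]) = y := by
          rw [run_append, hv']
          simpa using hp
        rw [this]
        exact ih (fun z hz => hL z (by simp [hz])) (Language.join_mem_kstar (fun z hz => hL z (by simp [hz])))
          (by simpa using Language.mem_mul.mpr ⟨_, Language.join_mem_kstar (fun z hz => hL z (by simp [hz])), g, hg, rfl⟩)
    rw [run_append, h1]
    exact prun_some_run step y hg
  · intro hw
    -- every word factors through its last visit to the hub
    have key : ∀ w : List β, ∃ a g, w = a ++ g ∧ a ∈ KStar.kstar F ∧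
        prun step y (some y) g = some (run step y w) := by
      intro w
      induction w using List.reverseRecOn with
      | nil => exact ⟨[], [], rfl, Language.nil_mem_kstar _, rfl⟩
      | append_singleton w x ih =>
        obtain ⟨a, g, rfl, ha, hg⟩ := ih
        by_cases hs : step (run step y (a ++ g)) x = y
        · refine ⟨a ++ (g ++ [x]), [], by simp, ?_, ?_⟩
          · obtain ⟨L, rfl, hL⟩ := Language.mem_kstar.mp ha
            refine Language.mem_kstar.mpr ⟨L ++ [g ++ [x]], by simp, ?_⟩
            intro z hz
            rcases List.mem_append.mp hz with hz | hz
            · exact hL z hz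
            · have hz' : z = g ++ [x] := by simpa using hz
              subst hz'
              exact ⟨(run step y (L.flatten ++ g), x), hs,
                Language.mem_mul.mpr ⟨g, hg, [x], rfl, rfl⟩⟩
          · have : run step y (a ++ g ++ [x]) = y := by
              rw [run_append]
              simpa using hs
            rw [this]
            rfl
        · refine ⟨a, g ++ [x], by simp, ha, ?_⟩
          rw [prun_append, hg]
          have : run step y (a ++ g ++ [x]) = step (run step y (a ++ g)) x := by
            rw [run_append]
            rfl
          rw [this]
          simp [pstep, hs]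
    obtain ⟨a, g, rfl, ha, hg⟩ := key w
    exact Language.mem_mul.mpr ⟨a, ha, g, by rw [mem_ofPred, hg, hw], rfl⟩

end hub

end Vale.Agent.GSH
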