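import Vale.Agent.GSH.Hub

/-!
The voltage automaton on `ZMod N × Bool`: the second coordinate is a parity, and the first one
counts, with signs, certain letters read at a prescribed parity.  Its cut automaton is aperiodic
because the corresponding action on `ℤ × Bool` has no nontrivial finite orbits.
-/

namespace Vale.Agent.GSH

section voltage
variable {β : Type} (odd : β → Bool) (wt : β → ℤ)

/-- The increment of a letter read at a given parity. -/
def dlt (b : Bool) (x : β) : ℤ :=
  match b, odd x with
  | false, true => 0
  | false, false => wt x
  | true, true => wt x
  | true, false => 0

/-- The total increment of a word started at a given parity. -/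
def Dl : Bool → List β → ℤ
  | _, [] => 0
  | b, x :: w => dlt odd wt b x + Dl (xor b (odd x)) w

/-- The parity of a word. -/
def par : List β → Bool
  | [] => false
  | x :: w => xor (odd x) (par w)

theorem Dl_sum (w : List β) : Dl odd wt false w + Dl odd wt true w = (w.map wt).sum := by
  induction w with
  | nil => rfl
  | cons x w ih =>
    simp only [Dl, List.map_cons, List.sum_cons, dlt]
    cases h : odd x <;> simp <;> linarith

/-- The action on the integer line. -/
def istep (q : ℤ × Bool) (x : β) : ℤ × Bool := (q.1 + dlt odd wt q.2 x, xor q.2 (odd x))

theorem irun_eq (h : ℤ) (b : Bool) (w : List β) :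
    run (istep odd wt) (h, b) w = (h + Dl odd wt b w, xor b (par odd w)) := by
  induction w generalizing h b with
  | nil => simp [Dl, par]
  | cons x w ih =>
    simp only [run_cons, istep, ih, Dl, par, Prod.mk.injEq]
    constructor
    · ring
    · cases b <;> cases odd x <;> cases par odd w <;> rfl

variable (N : ℕ)

/-- The voltage automaton. -/
def vstep (q : ZMod N × Bool) (x : β) : ZMod N × Bool :=
  (q.1 + ((dlt odd wt q.2 x : ℤ) : ZMod N), xor q.2 (odd x))

theorem vrun_eq (z : ZMod N) (b : Bool) (w : List β) :
    run (vstep odd wt N) (z, b) w = (z + ((Dl odd wt b w : ℤ) : ZMod N), xor b (par odd w)) := by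
  induction w generalizing z b with
  | nil => simp [Dl, par]
  | cons x w ih =>
    simp only [run_cons, vstep, ih, Dl, par, Prod.mk.injEq]
    constructor
    · push_cast
      ring
    · cases b <;> cases odd x <;> cases par odd w <;> rfl

variable {N} [NeZero N]

theorem val_succ (z : ZMod N) (h : z + 1 ≠ 0) : (((z + 1).val : ℕ) : ℤ) = (z.val : ℤ) + 1 := by
  have hN : 0 < N := NeZero.pos N
  have hlt : z.val < N := ZMod.val_lt z
  have hz : z.val + 1 ≠ N := by
    intro hc
    apply h
    have h1 : (z.val : ZMod N) = z := ZMod.natCast_zmod_val z
    have h2 : ((z.val + 1 : ℕ) : ZMod N) = 0 := by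
      rw [hc]
      exact ZMod.natCast_self N
    rw [← h1]
    simpa using h2
  have h3 : z + 1 = ((z.val + 1 : ℕ) : ZMod N) := by
    have h1 : (z.val : ZMod N) = z := ZMod.natCast_zmod_val z
    push_cast
    rw [h1]
  rw [h3, ZMod.val_natCast, Nat.mod_eq_of_lt (by omega)]
  push_cast
  ring

theorem val_pred (z : ZMod N) (h : z ≠ 0) : (((z - 1).val : ℕ) : ℤ) = (z.val : ℤ) - 1 := by
  have := val_succ (z - 1) (by simpa using h)
  rw [sub_add_cancel] at this
  omega

/-- Lifting states to the integer line. -/
def lift (q : ZMod N × Bool) : ℤ × Bool := ((q.1.val : ℤ), q.2)

theorem lift_injective : Function.Injective (lift : ZMod N × Bool → ℤ × Bool) := by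
  rintro ⟨z, b⟩ ⟨z', b'⟩ h
  simp only [lift, Prod.mk.injEq, Nat.cast_inj] at h
  obtain ⟨h1, rfl⟩ := h
  have : z = z' := ZMod.val_injective N h1
  rw [this]

/-- Allowed weights: signs for odd letters, `0` or `1` for even letters. -/
def WtOK : Prop := ∀ x, (odd x = true → wt x = 1 ∨ wt x = -1) ∧ (odd x = false → wt x = 0 ∨ wt x = 1)

theorem step_good (hw : WtOK odd wt) {q q' : ZMod N × Bool} (hq : q.1 ≠ 0) {x : β}
    (h : pstep (vstep odd wt N) (0, false) (some q) x = some q') :
    q'.1 ≠ 0 ∧ lift q' = istep odd wt (lift q) x := by
  simp only [pstep] at h
  split_ifs at h with hs
  have hq' : q' = vstep odd wt N q x := by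
    simpa using h.symm
  subst hq'
  obtain ⟨z, b⟩ := q
  have hz : z ≠ 0 := hq
  obtain ⟨h1, h2⟩ := hw x
  cases hb : b <;> cases hx : odd x
  · -- parity false, letter even
    subst hb
    have hd : dlt odd wt false x = wt x := by simp [dlt, hx]
    simp only [vstep, hx] at hs ⊢
    rw [hd] at hs ⊢
    rcases h2 hx with h0 | h0
    · rw [h0]
      simp [lift, istep, dlt, hx, h0, hz]
    · rw [h0] at hs ⊢
      have hne : z + 1 ≠ 0 := by
        intro h
        apply hs
        simp [h]
      refine ⟨by simpa using hne, ?_⟩
      simp only [lift, istep, dlt, hx, h0, Prod.mk.injEq]
      simp [val_succ z hne]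
  · -- parity false, letter odd
    subst hb
    have hd : dlt odd wt false x = 0 := by simp [dlt, hx]
    simp only [vstep, hx]
    rw [hd]
    simp [lift, istep, hd, hx, hz]
  · -- parity true, letter even
    subst hb
    have hd : dlt odd wt true x = 0 := by simp [dlt, hx]
    simp only [vstep, hx]
    rw [hd]
    simp [lift, istep, hd, hx, hz]
  · -- parity true, letter odd
    subst hb
    have hd : dlt odd wt true x = wt x := by simp [dlt, hx]
    simp only [vstep, hx] at hs ⊢
    rw [hd] at hs ⊢
    rcases h1 hx with h0 | h0
    · rw [h0] at hs ⊢
      have hne : z + 1 ≠ 0 := by
        intro h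
        apply hs
        simp [h]
      refine ⟨by simpa using hne, ?_⟩
      simp only [lift, istep, dlt, hx, h0, Prod.mk.injEq]
      simp [val_succ z hne]
    · rw [h0] at hs ⊢
      have hthis : z + ((-1 : ℤ) : ZMod N) = z - 1 := by
        push_cast
        ring
      rw [hthis] at hs ⊢
      have hne : z - 1 ≠ 0 := by
        intro h
        apply hs
        rw [h]
        rfl
      refine ⟨hne, ?_⟩
      simp only [lift, istep, dlt, hx, h0, Prod.mk.injEq]
      rw [val_pred z hz]
      simp
      ring

theorem prun_good (hw : WtOK odd wt) {q q' : ZMod N × Bool} (hq : q.1 ≠ 0) {w : List β}
    (h : prun (vstep odd wt N) (0, false) (some q) w = some q') :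
    q'.1 ≠ 0 ∧ lift q' = run (istep odd wt) (lift q) w := by
  induction w generalizing q with
  | nil =>
    simp only [prun_nil, Option.some.injEq] at h
    subst h
    exact ⟨hq, rfl⟩
  | cons x w ih =>
    rw [prun_cons] at h
    cases hp : pstep (vstep odd wt N) (0, false) (some q) x with
    | none =>
      rw [hp, prun_none] at h
      simp at h
    | some q1 =>
      rw [hp] at h
      obtain ⟨h1, h2⟩ := step_good odd wt hw hq hp
      obtain ⟨h3, h4⟩ := ih h1 h
      exact ⟨h3, by rw [h4, h2]; rfl⟩

/-- Iterating the integer action. -/
theorem iter_even (u : List β) (hu : par odd u = false) (k : ℕ) (h : ℤ) (b : Bool) :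
    (fun p => run (istep odd wt) p u)^[k] (h, b) = (h + k * Dl odd wt b u, b) := by
  induction k with
  | zero => simp
  | succ k ih =>
    rw [Function.iterate_succ_apply', ih]
    simp only [irun_eq, hu, Bool.xor_false, Prod.mk.injEq, and_true]
    push_cast
    ring

theorem iter_odd (u : List β) (hu : par odd u = true) (k : ℕ) (h : ℤ) (b : Bool) :
    (fun p => run (istep odd wt) p u)^[2 * k] (h, b) = (h + k * (u.map wt).sum, b) := by
  induction k with
  | zero => simp
  | succ k ih =>
    have : 2 * (k + 1) = 2 + 2 * k := by ring
    rw [this, Function.iterate_add_apply, ih]
    simp only [Function.iterate_succ_apply, Function.iterate_zero, id, irun_eq, hu]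
    have h1 : Dl odd wt b u + Dl odd wt (xor b true) u = (u.map wt).sum := by
      cases b
      · simpa using Dl_sum odd wt u
      · simpa [add_comm] using Dl_sum odd wt u
    simp only [Prod.mk.injEq]
    constructor
    · rw [add_assoc, h1]
      push_cast
      ring
    · cases b <;> rfl

/-- The aperiodicity of the cut voltage automaton. -/
theorem cutAperiodic (hw : WtOK odd wt) (htf : ∀ u : List β, par odd u = true → (u.map wt).sum ≠ 0) :
    CutAperiodic (vstep odd wt N) ((0 : ZMod N), false) := by
  classical
  intro u q d hd hper
  set T : Option (ZMod N × Bool) → Option (ZMod N × Bool) :=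
    fun o => prun (vstep odd wt N) (0, false) o u with hT
  -- iterates of a good state are good and follow the integer action
  have hiter : ∀ (k : ℕ) (q1 q2 : ZMod N × Bool), q1.1 ≠ 0 → T^[k] (some q1) = some q2 →
      q2.1 ≠ 0 ∧ lift q2 = (fun p => run (istep odd wt) p u)^[k] (lift q1) := by
    intro k
    induction k with
    | zero =>
      intro q1 q2 h1 h2
      simp only [Function.iterate_zero, id, Option.some.injEq] at h2
      subst h2
      exact ⟨h1, rfl⟩
    | succ k ih =>
      intro q1 q2 h1 h2
      rw [Function.iterate_succ_apply] at h2
      cases hp : T (some q1) with
      | none =>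
        rw [hp] at h2
        have hnone : ∀ n : ℕ, T^[n] none = none := by
          intro n
          induction n with
          | zero => rfl
          | succ n ihn =>
            rw [Function.iterate_succ_apply']
            rw [ihn]
            simp [hT]
        rw [hnone] at h2
        simp at h2
      | some q3 =>
        rw [hp] at h2
        obtain ⟨h3, h4⟩ := prun_good odd wt hw h1 hp
        obtain ⟨h5, h6⟩ := ih q3 q2 h3 h2
        refine ⟨h5, ?_⟩
        rw [h6, h4, Function.iterate_succ_apply]
  have hnone : ∀ n : ℕ, T^[n] none = none := by
    intro n
    induction n with
    | zero => rfl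
    | succ n ihn =>
      rw [Function.iterate_succ_apply', ihn]
      simp [hT]
  by_cases hq : q.1 = 0
  · -- the two states above the hub
    obtain ⟨z, b⟩ := q
    have hz : z = 0 := hq
    subst hz
    cases b with
    | false =>
      -- the hub itself: only the empty word can return
      cases u with
      | nil => rfl
      | cons x u' =>
        exfalso
        have hnot : ∀ o, T o ≠ some ((0 : ZMod N), false) := by
          intro o ho
          have key : ∀ (w : List β) (o : Option (ZMod N × Bool)),
              prun (vstep odd wt N) (0, false) o w = some ((0 : ZMod N), false) → w = [] := by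
            intro w
            induction w using List.reverseRecOn with
            | nil => intro _ _; rfl
            | append_singleton w a _ =>
              intro o h
              exfalso
              rw [prun_append] at h
              simp only [prun_cons, prun_nil] at h
              cases hp : prun (vstep odd wt N) (0, false) o w with
              | none =>
                rw [hp] at h
                simp [pstep] at h
              | some r =>
                rw [hp] at h
                simp only [pstep] at h
                split_ifs at h with hs
                simp only [Option.some.injEq] at h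
                exact hs h
          have := key _ o ho
          simp at this
        have hd' : d = (d - 1) + 1 := by omega
        rw [hd', Function.iterate_succ_apply'] at hper
        exact hnot _ hper
    | true =>
      -- the state over the hub at odd parity
      by_cases hev : ∀ x ∈ u, odd x = false
      · -- only even letters: the state does not move
        have : ∀ w : List β, (∀ x ∈ w, odd x = false) →
            prun (vstep odd wt N) (0, false) (some ((0 : ZMod N), true)) w = some ((0 : ZMod N), true) := by
          intro w
          induction w with
          | nil => intro _; rfl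
          | cons x w ih =>
            intro hw'
            have hx : odd x = false := hw' x (by simp)
            rw [prun_cons]
            have : pstep (vstep odd wt N) (0, false) (some ((0 : ZMod N), true)) x
                = some ((0 : ZMod N), true) := by
              simp [pstep, vstep, dlt, hx]
            rw [this]
            exact ih (fun y hy => hw' y (by simp [hy]))
        exact this u hev
      · exfalso
        -- the first odd letter leaves the fibre over the hub forever
        have hleave : ∀ w : List β, (∃ x ∈ w, odd x = true) → ∀ q2,
            prun (vstep odd wt N) (0, false) (some ((0 : ZMod N), true)) w = some q2 → q2.1 ≠ 0 := by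
          intro w
          induction w with
          | nil =>
            rintro ⟨x, hx, -⟩
            simp at hx
          | cons x w ih =>
            rintro ⟨y, hy, hy'⟩ q2 h
            rw [prun_cons] at h
            cases hx : odd x with
            | false =>
              have : pstep (vstep odd wt N) (0, false) (some ((0 : ZMod N), true)) x
                  = some ((0 : ZMod N), true) := by
                simp [pstep, vstep, dlt, hx]
              rw [this] at h
              refine ih ?_ q2 h
              rcases List.mem_cons.mp hy with rfl | hy
              · rw [hx] at hy'
                simp at hy'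
              · exact ⟨y, hy, hy'⟩
            | true =>
              cases hp : pstep (vstep odd wt N) (0, false) (some ((0 : ZMod N), true)) x with
              | none =>
                rw [hp, prun_none] at h
                simp at h
              | some r =>
                rw [hp] at h
                have hr : r.1 ≠ 0 := by
                  simp only [pstep] at hp
                  split_ifs at hp with hs
                  simp only [Option.some.injEq] at hp
                  subst hp
                  intro h0
                  apply hs
                  simp only [vstep, hx] at h0 ⊢
                  simp only [dlt, hx] at h0 ⊢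
                  simp [h0]
                exact (prun_good odd wt hw hr h).1
        push Not at hev
        obtain ⟨x, hx, hx'⟩ := hev
        have hx'' : odd x = true := by simpa using hx'
        have hd' : d = (d - 1) + 1 := by omega
        rw [hd', Function.iterate_succ_apply] at hper
        cases hp : T (some ((0 : ZMod N), true)) with
        | none =>
          rw [hp, hnone] at hper
          simp at hper
        | some r =>
          rw [hp] at hper
          have hr := hleave u ⟨x, hx, hx''⟩ r hp
          exact (hiter _ _ _ hr hper).1 rfl
  · -- a good state: use the integer line
    have h1 := (hiter d q q hq hper).2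
    have hd' : d = (d - 1) + 1 := by omega
    have hfirst : ∃ q1, T (some q) = some q1 := by
      rw [hd', Function.iterate_succ_apply] at hper
      cases hp : T (some q) with
      | none =>
        rw [hp, hnone] at hper
        simp at hper
      | some q1 => exact ⟨q1, rfl⟩
    obtain ⟨q1, hq1⟩ := hfirst
    have h2 := (prun_good odd wt hw hq hq1).2
    have hgoal : q1 = q := by
      apply lift_injective
      rw [h2]
      obtain ⟨h0, b, hlq⟩ : ∃ h0 b, lift q = (h0, b) := ⟨_, _, rfl⟩
      rw [hlq] at h1 ⊢
      rw [irun_eq]
      cases hu : par odd u with
      | false =>
        have := iter_even odd wt u hu d h0 b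
        rw [this] at h1
        have hz : (d : ℤ) * Dl odd wt b u = 0 := by
          have := congrArg Prod.fst h1
          simp only at this
          linarith
        have hz' : Dl odd wt b u = 0 := by
          rcases mul_eq_zero.mp hz with h | h
          · have : d = 0 := by exact_mod_cast h
            omega
          · exact h
        simp [hz']
      | true =>
        exfalso
        have hd2 := iter_odd odd wt u hu d h0 b
        have h3 : (fun p => run (istep odd wt) p u)^[2 * d] (h0, b) = (h0, b) := by
          rw [two_mul, Function.iterate_add_apply, ← h1, ← h1]
        rw [h3] at hd2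
        have hz : (d : ℤ) * (u.map wt).sum = 0 := by
          have := congrArg Prod.fst hd2
          simp only at this
          linarith
        rcases mul_eq_zero.mp hz with h | h
        · have : d = 0 := by exact_mod_cast h
          omega
        · exact htf u hu h
    have hfin := hq1
    rw [hgoal] at hfin
    exact hfin

/-- The main consequence: the value of the voltage counter has height at most one. -/
theorem voltage_hasH [Finite β] (hw : WtOK odd wt)
    (htf : ∀ u : List β, par odd u = true → (u.map wt).sum ≠ 0) (q : ZMod N × Bool) :
    HasH 1 (ofPred fun w : List β =>
      (((Dl odd wt false w : ℤ) : ZMod N), par odd w) = q) := by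
  classical
  have := hub_hasH (vstep odd wt N) ((0 : ZMod N), false) (cutAperiodic odd wt hw htf) q
  refine this.congr ?_
  intro w
  simp only [mem_ofPred, vrun_eq, zero_add, Bool.false_bne]

end voltage

end Vale.Agent.GSH
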