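import Vale.Agent.GSH.Closure

/-!
Schutzenberger's theorem (direction needed here): languages recognized by a finite aperiodic
monoid are star free.  The proof follows the local divisor technique.
-/

namespace Vale.Agent.GSH

open GenRE

/-- Evaluation of a word in a monoid, letter by letter. -/
def ev {β M : Type} [Monoid M] (f : β → M) (w : List β) : M := (w.map f).prod

section evlemmas
variable {β M : Type} [Monoid M] (f : β → M)

@[simp] theorem ev_nil : ev f [] = 1 := rfl

@[simp] theorem ev_cons (a : β) (w : List β) : ev f (a :: w) = f a * ev f w := by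
  simp [ev]

theorem ev_append (u v : List β) : ev f (u ++ v) = ev f u * ev f v := by
  simp [ev]

end evlemmas

/-! ### Erasing a letter -/

section erase
variable {β : Type} [Finite β]

/-- Delete all occurrences of the letter `c`. -/
def del [DecidableEq β] (c : β) : List β → List β
  | [] => []
  | a :: w => if a = c then del c w else a :: del c w

/-- Inverse image under the morphism erasing the letter `c`. -/
def eraseInv [DecidableEq β] (c : β) (L : Language β) : Language β :=
  ofPred fun w => del c w ∈ L

theorem del_append [DecidableEq β] (c : β) (u v : List β) :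
    del c (u ++ v) = del c u ++ del c v := by
  induction u with
  | nil => rfl
  | cons a u ih =>
    simp only [List.cons_append, del]
    split_ifs <;> simp [ih]

theorem del_eq_nil [DecidableEq β] (c : β) (w : List β) : del c w = [] ↔ ∀ a ∈ w, a = c := by
  induction w with
  | nil => simp [del]
  | cons a w ih =>
    simp only [del, List.mem_cons, forall_eq_or_imp]
    split_ifs with h
    · simp [h, ih]
    · simp [h]

theorem del_split [DecidableEq β] (c : β) (w x y : List β) (h : del c w = x ++ y) :
    ∃ u v, w = u ++ v ∧ del c u = x ∧ del c v = y := by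
  induction w generalizing x with
  | nil =>
    have hh : x ++ y = [] := h.symm
    simp only [List.append_eq_nil_iff] at hh
    exact ⟨[], [], rfl, hh.1.symm, hh.2.symm⟩
  | cons a w ih =>
    by_cases hac : a = c
    · have h' : del c w = x ++ y := by simpa [del, hac] using h
      obtain ⟨u, v, rfl, hu, hv⟩ := ih x h'
      exact ⟨a :: u, v, rfl, by simp [del, hac, hu], hv⟩
    · have h' : a :: del c w = x ++ y := by simpa [del, hac] using h
      cases x with
      | nil =>
        refine ⟨[], a :: w, rfl, rfl, ?_⟩
        simpa [del, hac] using h'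
      | cons b x =>
        simp only [List.cons_append, List.cons.injEq] at h'
        obtain ⟨rfl, h''⟩ := h'
        obtain ⟨u, v, rfl, hu, hv⟩ := ih x h''
        exact ⟨a :: u, v, rfl, by simp [del, hac, hu], hv⟩

theorem del_eq_single [DecidableEq β] (c a : β) (w : List β) (h : del c w = [a]) :
    ∃ u v, w = u ++ a :: v ∧ (∀ b ∈ u, b = c) ∧ (∀ b ∈ v, b = c) := by
  induction w with
  | nil => simp [del] at h
  | cons d w ih =>
    by_cases hdc : d = c
    · have h' : del c w = [a] := by simpa [del, hdc] using h
      obtain ⟨u, v, rfl, hu, hv⟩ := ih h'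
      refine ⟨d :: u, v, rfl, ?_, hv⟩
      intro b hb
      rcases List.mem_cons.mp hb with rfl | hb
      · exact hdc
      · exact hu b hb
    · have h' : d :: del c w = [a] := by simpa [del, hdc] using h
      simp only [List.cons.injEq] at h'
      obtain ⟨rfl, h''⟩ := h'
      exact ⟨[], w, rfl, by simp, (del_eq_nil c w).mp h''⟩

theorem eraseInv_hasH [DecidableEq β] (c : β) (e : GenRE β) (he : e.starHeight = 0) :
    HasH 0 (eraseInv c e.lang) := by
  induction e with
  | zero =>
    refine (HasH.zero (α := β) 0).congr ?_
    intro w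
    constructor
    · intro h; exact (Language.notMem_zero _ h).elim
    · intro h; exact (Language.notMem_zero _ h).elim
  | one =>
    refine (HasH.allLetters (α := β) 0 (fun a => a = c)).congr ?_
    intro w
    show (∀ a ∈ w, a = c) ↔ del c w = []
    rw [del_eq_nil]
  | lit a =>
    by_cases hac : a = c
    · subst hac
      refine (HasH.zero (α := β) 0).congr ?_
      intro w
      constructor
      · intro h; exact (Language.notMem_zero _ h).elim
      · intro h
        have h' : del a w = [a] := h
        obtain ⟨u, v, rfl, -, -⟩ := del_eq_single a a w h'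
        exfalso
        have h2 : ∀ z : List β, a ∉ del a z := by
          intro z
          induction z with
          | nil => simp [del]
          | cons d z ih =>
            simp only [del]
            split_ifs with hd
            · exact ih
            · simp only [List.mem_cons, not_or]
              exact ⟨fun h => hd h.symm, ih⟩
        exact h2 _ (h' ▸ List.mem_singleton.mpr rfl)
    · have h1 := HasH.allLetters (α := β) 0 (fun b => b = c)
      refine (h1.mul ((HasH.lit 0 a).mul h1)).congr ?_
      intro w
      simp only [Language.mem_mul, mem_ofPred]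
      constructor
      · rintro ⟨u, hu, z, ⟨x, hx, v, hv, rfl⟩, rfl⟩
        have hx' : x = [a] := hx
        subst hx'
        show del c (u ++ ([a] ++ v)) = [a]
        rw [del_append, del_append, (del_eq_nil c u).mpr hu, (del_eq_nil c v).mpr hv]
        simp [del, hac]
      · intro h
        have h' : del c w = [a] := h
        obtain ⟨u, v, rfl, hu, hv⟩ := del_eq_single c a w h'
        exact ⟨u, hu, [a] ++ v, ⟨[a], rfl, v, hv, rfl⟩, rfl⟩
  | add p q ihp ihq =>
    have hp : p.starHeight = 0 := by
      simp only [starHeight] at he; omega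
    have hq : q.starHeight = 0 := by
      simp only [starHeight] at he; omega
    refine ((ihp hp).add (ihq hq)).congr ?_
    intro w
    rfl
  | mul p q ihp ihq =>
    have hp : p.starHeight = 0 := by
      simp only [starHeight] at he; omega
    have hq : q.starHeight = 0 := by
      simp only [starHeight] at he; omega
    refine ((ihp hp).mul (ihq hq)).congr ?_
    intro w
    simp only [Language.mem_mul, eraseInv, mem_ofPred, lang]
    constructor
    · rintro ⟨u, hu, v, hv, rfl⟩
      refine ⟨_, hu, _, hv, ?_⟩
      rw [del_append]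
    · rintro ⟨x, hx, y, hy, hxy⟩
      obtain ⟨u, v, rfl, hu, hv⟩ := del_split c w x y hxy.symm
      exact ⟨u, by rwa [hu], v, by rwa [hv], rfl⟩
  | compl p ih =>
    have hp : p.starHeight = 0 := by
      simpa [starHeight] using he
    refine (ih hp).compl.congr ?_
    intro w
    rfl
  | star p _ =>
    simp [starHeight] at he

end erase

/-! ### The local divisor -/

section localdiv
variable {M : Type} [Monoid M]

/-- The local divisor at `x`: the set `xM ∩ Mx` with a modified product. -/
def LD (x : M) : Type := {a : M // (∃ u, a = x * u) ∧ (∃ v, a = v * x)}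

variable {x : M}

/-- Right cofactor of an element of the local divisor. -/
noncomputable def LD.R (b : LD x) : M := b.2.1.choose

theorem LD.R_spec (b : LD x) : b.1 = x * LD.R b := b.2.1.choose_spec

noncomputable instance : Mul (LD x) :=
  ⟨fun a b => ⟨a.1 * LD.R b, by
    obtain ⟨u, hu⟩ := a.2.1
    exact ⟨u * LD.R b, by rw [hu, mul_assoc]⟩, by
    obtain ⟨v, hv⟩ := a.2.2
    obtain ⟨w, hw⟩ := b.2.2
    refine ⟨v * w, ?_⟩
    rw [hv, mul_assoc, ← LD.R_spec, hw, mul_assoc]⟩⟩

theorem LD.mul_val (a b : LD x) : (a * b).1 = a.1 * LD.R b := rfl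

theorem LD.mul_val_left (a b : LD x) {u : M} (hu : a.1 = u * x) : (a * b).1 = u * b.1 := by
  rw [LD.mul_val, hu, mul_assoc, ← LD.R_spec]

theorem LD.mul_val_right (a b : LD x) {v : M} (hv : b.1 = x * v) : (a * b).1 = a.1 * v := by
  obtain ⟨u, hu⟩ := a.2.2
  rw [LD.mul_val_left a b hu, hv, hu, mul_assoc]

noncomputable instance : One (LD x) := ⟨⟨x, ⟨1, by simp⟩, ⟨1, by simp⟩⟩⟩

theorem LD.one_val : (1 : LD x).1 = x := rfl

noncomputable instance LD.monoid : Monoid (LD x) where
  mul_assoc a b c := by
    apply Subtype.ext
    obtain ⟨u, hu⟩ := a.2.2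
    rw [LD.mul_val_left a (b * c) hu, LD.mul_val (a * b) c, LD.mul_val b c,
      LD.mul_val_left a b hu, mul_assoc]
  one_mul b := by
    apply Subtype.ext
    rw [LD.mul_val_left 1 b (u := 1) (by simp [LD.one_val]), one_mul]
  mul_one a := by
    apply Subtype.ext
    rw [LD.mul_val_right a 1 (v := 1) (by simp [LD.one_val]), mul_one]

theorem LD.pow_val (a : LD x) {L : M} (hL : a.1 = L * x) (k : ℕ) :
    (a ^ (k + 1)).1 = L ^ k * a.1 := by
  induction k with
  | zero => simp
  | succ k ih =>
    rw [pow_succ' a (k + 1), LD.mul_val_left a _ hL, ih, pow_succ' L k, mul_assoc]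

theorem LD.aperiodic (hM : ∀ y : M, ∃ k : ℕ, y ^ k = y ^ (k + 1)) (a : LD x) :
    ∃ k : ℕ, a ^ k = a ^ (k + 1) := by
  obtain ⟨L, hL⟩ := a.2.2
  obtain ⟨k, hk⟩ := hM L
  refine ⟨k + 1, Subtype.ext ?_⟩
  rw [LD.pow_val a hL, LD.pow_val a hL, hk]

theorem one_notMem_LD (hM : ∀ y : M, ∃ k : ℕ, y ^ k = y ^ (k + 1)) (hx : x ≠ 1) (u : M) :
    (1 : M) ≠ x * u := by
  intro h
  obtain ⟨k, hk⟩ := hM x
  have h1 : ∀ n : ℕ, x ^ n * u ^ n = 1 := by
    intro n
    induction n with
    | zero => simp
    | succ n ih =>
      calc x ^ (n + 1) * u ^ (n + 1) = x ^ n * (x * u) * u ^ n := by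
            rw [pow_succ x n, pow_succ' u n]; simp [mul_assoc]
        _ = 1 := by rw [← h, mul_one, ih]
  apply hx
  calc x = x * (x ^ k * u ^ k) := by rw [h1 k, mul_one]
    _ = x ^ (k + 1) * u ^ k := by rw [pow_succ' x k, mul_assoc]
    _ = x ^ k * u ^ k := by rw [← hk]
    _ = 1 := h1 k

theorem LD.card_lt [Fintype M] (hM : ∀ y : M, ∃ k : ℕ, y ^ k = y ^ (k + 1)) (hx : x ≠ 1)
    [Fintype (LD x)] : Fintype.card (LD x) < Fintype.card M := by
  classical
  refine Fintype.card_lt_of_injective_of_notMem (fun a : LD x => a.1)
    (fun a b h => Subtype.ext h) (b := 1) ?_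
  rintro ⟨a, ha⟩
  have ha' : a.1 = 1 := ha
  obtain ⟨u, hu⟩ := a.2.1
  exact one_notMem_LD hM hx u (ha'.symm.trans hu)

instance LD.finite [Finite M] : Finite (LD x) := by
  unfold LD
  infer_instance

/-- The sandwich map into the local divisor. -/
def LD.g (x : M) (t : M) : LD x := ⟨x * t * x, ⟨t * x, by simp [mul_assoc]⟩, ⟨x * t, rfl⟩⟩

/-- The value of a product of sandwiches. -/
def LD.P (x : M) : List M → M
  | [] => x
  | t :: l => x * t * LD.P x l

theorem LD.ev_g_val (l : List M) : (ev (LD.g x) l).1 = LD.P x l := by
  induction l with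
  | nil => rfl
  | cons t l ih =>
    rw [ev_cons, LD.mul_val_left (LD.g x t) _ (u := x * t) rfl, ih]
    rfl

end localdiv

/-! ### Segments -/

section segments
variable {β M : Type} [Monoid M] (f : β → M) (B : Finset β) (c : β)

/-- Words over `B` with value `t`. -/
def LB (t : M) : Language β := ofPred fun w => (∀ a ∈ w, a ∈ B) ∧ ev f w = t

/-- The words `u₁ c u₂ c ... uₖ c` with `uᵢ` over `B` of value `tᵢ`. -/
def Seg : List M → Language β
  | [] => 1
  | t :: l => ofPred fun v => ∃ u v', u ∈ LB f B t ∧ v' ∈ Seg l ∧ v = u ++ c :: v'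

variable {f B c}

theorem Seg_nil_iff {v : List β} : v ∈ Seg f B c ([] : List M) ↔ v = [] := Iff.rfl

theorem Seg_cons_iff {t : M} {l : List M} {v : List β} :
    v ∈ Seg f B c (t :: l) ↔ ∃ u v', u ∈ LB f B t ∧ v' ∈ Seg f B c l ∧ v = u ++ c :: v' := Iff.rfl

theorem Seg_append (l₁ l₂ : List M) :
    Seg f B c (l₁ ++ l₂) = Seg f B c l₁ * Seg f B c l₂ := by
  induction l₁ with
  | nil =>
    simp only [List.nil_append]
    exact (one_mul _).symm
  | cons t l ih =>
    apply Language.ext
    intro v
    simp only [List.cons_append]
    rw [Seg_cons_iff, ih, Language.mem_mul]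
    constructor
    · rintro ⟨u, v', hu, hv', rfl⟩
      obtain ⟨a, ha, b, hb, rfl⟩ := Language.mem_mul.mp hv'
      exact ⟨u ++ c :: a, Seg_cons_iff.mpr ⟨u, a, hu, ha, rfl⟩, b, hb, by simp⟩
    · rintro ⟨a, ha, b, hb, rfl⟩
      obtain ⟨u, v', hu, hv', rfl⟩ := Seg_cons_iff.mp ha
      exact ⟨u, v' ++ b, hu, Language.mem_mul.mpr ⟨v', hv', b, hb, rfl⟩, by simp⟩

theorem split_unique {u u' v v' : List β} (hcB : c ∉ B)
    (hu : ∀ a ∈ u, a ∈ B) (hu' : ∀ a ∈ u', a ∈ B)
    (h : u ++ c :: v = u' ++ c :: v') : u = u' ∧ v = v' := by
  induction u generalizing u' with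
  | nil =>
    cases u' with
    | nil => simpa using h
    | cons d u' =>
      simp only [List.nil_append, List.cons_append, List.cons.injEq] at h
      exact (hcB (h.1 ▸ hu' d (by simp))).elim
  | cons d u ih =>
    cases u' with
    | nil =>
      simp only [List.nil_append, List.cons_append, List.cons.injEq] at h
      exact (hcB (h.1 ▸ hu d (by simp))).elim
    | cons e u' =>
      simp only [List.cons_append, List.cons.injEq] at h
      obtain ⟨rfl, h⟩ := h
      obtain ⟨h1, h2⟩ := ih (fun a ha => hu a (by simp [ha])) (fun a ha => hu' a (by simp [ha])) h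
      exact ⟨by rw [h1], h2⟩

theorem Seg_unique (hcB : c ∉ B) {l₁ l₂ : List M} {v : List β}
    (h₁ : v ∈ Seg f B c l₁) (h₂ : v ∈ Seg f B c l₂) : l₁ = l₂ := by
  induction l₁ generalizing l₂ v with
  | nil =>
    cases l₂ with
    | nil => rfl
    | cons t l₂ =>
      obtain ⟨u, v', -, -, rfl⟩ := Seg_cons_iff.mp h₂
      have : u ++ c :: v' = [] := h₁
      simp at this
  | cons t l₁ ih =>
    cases l₂ with
    | nil =>
      obtain ⟨u, v', -, -, rfl⟩ := Seg_cons_iff.mp h₁
      have : u ++ c :: v' = [] := h₂
      simp at this
    | cons t' l₂ =>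
      obtain ⟨u, v', hu, hv', rfl⟩ := Seg_cons_iff.mp h₁
      obtain ⟨u', v'', hu', hv'', h⟩ := Seg_cons_iff.mp h₂
      obtain ⟨rfl, rfl⟩ := split_unique hcB hu.1 hu'.1 h
      have h1 : t = t' := by rw [← hu.2, ← hu'.2]
      rw [h1, ih hv' hv'']

theorem Seg_letters {l : List M} {v : List β} (h : v ∈ Seg f B c l) (a : β) (ha : a ∈ v) :
    a = c ∨ a ∈ B := by
  induction l generalizing v with
  | nil =>
    have : v = [] := h
    subst this
    simp at ha
  | cons t l ih =>
    obtain ⟨u, v', hu, hv', rfl⟩ := Seg_cons_iff.mp h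
    simp only [List.mem_append, List.mem_cons] at ha
    rcases ha with ha | rfl | ha
    · exact Or.inr (hu.1 a ha)
    · exact Or.inl rfl
    · exact ih hv' ha

theorem Seg_value {x₀ : M} (hc : f c = x₀) {l : List M} {v : List β} (h : v ∈ Seg f B c l) :
    x₀ * ev f v = LD.P x₀ l := by
  induction l generalizing v with
  | nil =>
    have : v = [] := h
    subst this
    simp [LD.P]
  | cons t l ih =>
    obtain ⟨u, v', hu, hv', rfl⟩ := Seg_cons_iff.mp h
    rw [ev_append, ev_cons, hc, hu.2, LD.P, ← ih hv']
    simp [mul_assoc]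

/-- All the words of the form `v` or `v₀ c`, with letters from `B` and `c`: these are exactly the
segment words. -/
theorem Seg_total (hcB : c ∉ B) (z : List β) (hz : ∀ a ∈ z, a = c ∨ a ∈ B) :
    ∃ l : List M, z ++ [c] ∈ Seg f B c l := by
  induction z with
  | nil =>
    exact ⟨[1], Seg_cons_iff.mpr ⟨[], [], ⟨by simp, rfl⟩, rfl, rfl⟩⟩
  | cons a z ih =>
    obtain ⟨l, hl⟩ := ih (fun b hb => hz b (by simp [hb]))
    by_cases hac : a = c
    · subst hac
      exact ⟨1 :: l, Seg_cons_iff.mpr ⟨[], z ++ [a], ⟨by simp, rfl⟩, hl, rfl⟩⟩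
    · have haB : a ∈ B := by
        rcases hz a (by simp) with h | h
        · exact (hac h).elim
        · exact h
      cases l with
      | nil =>
        have : z ++ [c] = [] := hl
        simp at this
      | cons t l =>
        obtain ⟨u, v', hu, hv', huv⟩ := Seg_cons_iff.mp hl
        refine ⟨(f a * t) :: l, Seg_cons_iff.mpr ⟨a :: u, v', ⟨?_, ?_⟩, hv', ?_⟩⟩
        · intro b hb
          rcases List.mem_cons.mp hb with rfl | hb
          · exact haB
          · exact hu.1 b hb
        · rw [ev_cons, hu.2]
        · simp [huv]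

/-- The union of all segment languages. -/
def SegAll (f : β → M) (B : Finset β) (c : β) : Language β :=
  ofPred fun v => ∃ l : List M, v ∈ Seg f B c l

theorem mem_SegAll_iff (hcB : c ∉ B) (v : List β) :
    v ∈ SegAll f B c ↔ v = [] ∨ ∃ z, v = z ++ [c] ∧ ∀ a ∈ z, a = c ∨ a ∈ B := by
  constructor
  · rintro ⟨l, hl⟩
    induction l generalizing v with
    | nil => exact Or.inl hl
    | cons t l ih =>
      obtain ⟨u, v', hu, hv', rfl⟩ := Seg_cons_iff.mp hl
      right
      rcases ih v' hv' with rfl | ⟨z, rfl, hz⟩
      · exact ⟨u, rfl, fun a ha => Or.inr (hu.1 a ha)⟩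
      · refine ⟨u ++ c :: z, by simp, ?_⟩
        intro a ha
        simp only [List.mem_append, List.mem_cons] at ha
        rcases ha with ha | rfl | ha
        · exact Or.inr (hu.1 a ha)
        · exact Or.inl rfl
        · exact hz a ha
  · rintro (rfl | ⟨z, rfl, hz⟩)
    · exact ⟨[], rfl⟩
    · obtain ⟨l, hl⟩ := Seg_total (f := f) (M := M) hcB z hz
      exact ⟨l, hl⟩

/-- The image of a language over the alphabet `M` under the segment map. -/
def SegLang (f : β → M) (B : Finset β) (c : β) (L : Language M) : Language β :=
  ofPred fun v => ∃ l ∈ L, v ∈ Seg f B c l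

theorem SegLang_hasH [Finite β] (hcB : c ∉ B) (hB : ∀ t : M, HasH 0 (LB f B t)) (e : GenRE M)
    (he : e.starHeight = 0) : HasH 0 (SegLang f B c e.lang) := by
  have hD : HasH 0 (SegAll f B c) := by
    have h1 := HasH.allLetters (α := β) 0 (fun a => a = c ∨ a ∈ B)
    refine ((HasH.one (α := β) 0).add (h1.mul (HasH.lit 0 c))).congr ?_
    intro v
    rw [mem_SegAll_iff hcB, Language.mem_add, Language.mem_one, Language.mem_mul]
    constructor
    · rintro (rfl | ⟨z, hz, x, hx, rfl⟩)
      · exact Or.inl rfl
      · have hx' : x = [c] := hx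
        subst hx'
        exact Or.inr ⟨z, rfl, hz⟩
    · rintro (rfl | ⟨z, rfl, hz⟩)
      · exact Or.inl rfl
      · exact Or.inr ⟨z, hz, [c], rfl, rfl⟩
  induction e with
  | zero =>
    refine (HasH.zero (α := β) 0).congr ?_
    intro v
    constructor
    · intro h; exact (Language.notMem_zero _ h).elim
    · rintro ⟨l, hl, -⟩
      exact (Language.notMem_zero _ hl).elim
  | one =>
    refine (HasH.one (α := β) 0).congr ?_
    intro v
    constructor
    · intro h
      exact ⟨[], rfl, h⟩
    · rintro ⟨l, hl, hv⟩
      have : l = [] := hl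
      subst this
      exact hv
  | lit t =>
    refine ((hB t).mul (HasH.lit 0 c)).congr ?_
    intro v
    rw [Language.mem_mul]
    constructor
    · rintro ⟨u, hu, x, hx, rfl⟩
      have hx' : x = [c] := hx
      subst hx'
      exact ⟨[t], rfl, Seg_cons_iff.mpr ⟨u, [], hu, rfl, rfl⟩⟩
    · rintro ⟨l, hl, hv⟩
      have : l = [t] := hl
      subst this
      obtain ⟨u, v', hu, hv', rfl⟩ := Seg_cons_iff.mp hv
      have : v' = [] := hv'
      subst this
      exact ⟨u, hu, [c], rfl, rfl⟩
  | add p q ihp ihq =>
    have hp : p.starHeight = 0 := by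
      simp only [starHeight] at he; omega
    have hq : q.starHeight = 0 := by
      simp only [starHeight] at he; omega
    refine ((ihp hp).add (ihq hq)).congr ?_
    intro v
    rw [Language.mem_add]
    constructor
    · rintro (⟨l, hl, hv⟩ | ⟨l, hl, hv⟩)
      · exact ⟨l, Or.inl hl, hv⟩
      · exact ⟨l, Or.inr hl, hv⟩
    · rintro ⟨l, hl | hl, hv⟩
      · exact Or.inl ⟨l, hl, hv⟩
      · exact Or.inr ⟨l, hl, hv⟩
  | mul p q ihp ihq =>
    have hp : p.starHeight = 0 := by
      simp only [starHeight] at he; omega
    have hq : q.starHeight = 0 := by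
      simp only [starHeight] at he; omega
    refine ((ihp hp).mul (ihq hq)).congr ?_
    intro v
    rw [Language.mem_mul]
    constructor
    · rintro ⟨a, ⟨l₁, hl₁, ha⟩, b, ⟨l₂, hl₂, hb⟩, rfl⟩
      refine ⟨l₁ ++ l₂, Language.mem_mul.mpr ⟨l₁, hl₁, l₂, hl₂, rfl⟩, ?_⟩
      rw [Seg_append]
      exact Language.mem_mul.mpr ⟨a, ha, b, hb, rfl⟩
    · rintro ⟨l, hl, hv⟩
      obtain ⟨l₁, hl₁, l₂, hl₂, rfl⟩ := Language.mem_mul.mp hl
      rw [Seg_append] at hv
      obtain ⟨a, ha, b, hb, rfl⟩ := Language.mem_mul.mp hv
      exact ⟨a, ⟨l₁, hl₁, ha⟩, b, ⟨l₂, hl₂, hb⟩, rfl⟩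
  | compl p ih =>
    have hp : p.starHeight = 0 := by
      simpa [starHeight] using he
    refine (hD.inter (ih hp).compl).congr ?_
    intro v
    show (v ∈ SegAll f B c ∧ v ∉ SegLang f B c p.lang) ↔ _
    constructor
    · rintro ⟨⟨l, hl⟩, hn⟩
      exact ⟨l, fun hlp => hn ⟨l, hlp, hl⟩, hl⟩
    · rintro ⟨l, hl, hv⟩
      refine ⟨⟨l, hv⟩, ?_⟩
      rintro ⟨l', hl', hv'⟩
      rw [Seg_unique hcB hv hv'] at hl
      exact hl hl'
  | star p _ =>
    simp [starHeight] at he

end segments

/-! ### The theorem -/

theorem first_split {β : Type} (c : β) (w : List β) (h : c ∈ w) :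
    ∃ u r, w = u ++ c :: r ∧ c ∉ u := by
  classical
  induction w with
  | nil => simp at h
  | cons a w ih =>
    by_cases hac : a = c
    · subst hac
      exact ⟨[], w, rfl, by simp⟩
    · have hcw : c ∈ w := by
        rcases List.mem_cons.mp h with h | h
        · exact (hac h.symm).elim
        · exact h
      obtain ⟨u, r, rfl, hu⟩ := ih hcw
      refine ⟨a :: u, r, rfl, ?_⟩
      simp only [List.mem_cons, not_or]
      exact ⟨fun h => hac h.symm, hu⟩

theorem last_split {β : Type} (c : β) (r : List β) :
    ∃ v u, r = v ++ u ∧ c ∉ u ∧ (v = [] ∨ ∃ z, v = z ++ [c]) := by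
  induction r with
  | nil => exact ⟨[], [], rfl, by simp, Or.inl rfl⟩
  | cons a r ih =>
    obtain ⟨v, u, rfl, hu, hv⟩ := ih
    rcases hv with rfl | ⟨z, rfl⟩
    · by_cases hac : a = c
      · subst hac
        exact ⟨[a], u, rfl, hu, Or.inr ⟨[], rfl⟩⟩
      · refine ⟨[], a :: u, rfl, ?_, Or.inl rfl⟩
        simp only [List.mem_cons, not_or]
        exact ⟨fun h => hac h.symm, hu⟩
    · exact ⟨a :: (z ++ [c]), u, by simp, hu, Or.inr ⟨a :: z, rfl⟩⟩

/-- Schutzenberger: every language recognized by a finite aperiodic monoid is star free. -/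
theorem sch_aux (n : ℕ) : ∀ (M : Type) [Monoid M] [Fintype M], Fintype.card M ≤ n →
    (∀ x : M, ∃ k : ℕ, x ^ k = x ^ (k + 1)) →
    ∀ (β : Type) [Finite β] (f : β → M) (S : Finset β) (m : M),
      HasH 0 (LB f S m) := by
  classical
  induction n with
  | zero =>
    intro M _ _ hc
    have := Fintype.card_pos (α := M)
    omega
  | succ n ih =>
    intro M _ _ hc hM β _ f S
    induction S using Finset.induction_on with
    | empty =>
      intro m
      by_cases hm : m = 1
      · refine (HasH.one (α := β) 0).congr ?_
        intro w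
        constructor
        · intro hw
          have : w = [] := hw
          subst this
          exact ⟨by simp, by simp [hm]⟩
        · rintro ⟨h1, -⟩
          cases w with
          | nil => rfl
          | cons a w => exact (by simpa using h1 a (by simp))
      · refine (HasH.zero (α := β) 0).congr ?_
        intro w
        constructor
        · intro h; exact (Language.notMem_zero _ h).elim
        · rintro ⟨h1, h2⟩
          cases w with
          | nil => exact (hm (by simpa using h2.symm)).elim
          | cons a w => exact (by simpa using h1 a (by simp))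
    | insert c B hcB hB =>
      intro m
      by_cases hc1 : f c = 1
      · -- the letter `c` acts trivially: erase it
        obtain ⟨e, he, hL⟩ := hB m
        have he0 : e.starHeight = 0 := by omega
        have := eraseInv_hasH c e he0
        rw [hL] at this
        refine this.congr ?_
        intro w
        have hev : ∀ w : List β, ev f (del c w) = ev f w := by
          intro w
          induction w with
          | nil => rfl
          | cons a w ih =>
            simp only [del]
            split_ifs with h
            · rw [ev_cons, h, hc1, one_mul, ih]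
            · rw [ev_cons, ev_cons, ih]
        have hlet : ∀ w : List β, (∀ a ∈ del c w, a ∈ B) ↔ ∀ a ∈ w, a ∈ insert c B := by
          intro w
          induction w with
          | nil => simp [del]
          | cons a w ih =>
            simp only [del, List.mem_cons, forall_eq_or_imp]
            split_ifs with h
            · rw [ih]
              simp [h]
            · simp only [List.mem_cons, forall_eq_or_imp, ih]
              simp [h]
        show ((∀ a ∈ del c w, a ∈ B) ∧ ev f (del c w) = m) ↔ _
        rw [hev, hlet]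
        rfl
      · -- the local divisor at `f c`
        set x := f c with hx
        haveI : Fintype (LD x) := Fintype.ofFinite _
        have hcard : Fintype.card (LD x) ≤ n := by
          have := LD.card_lt hM hc1
          omega
        have hLD : ∀ s : LD x, HasH 0 (SegLang f B c (LB (LD.g x) Finset.univ s)) := by
          intro s
          obtain ⟨e, he, hL⟩ := ih (LD x) hcard (LD.aperiodic hM) M (LD.g x) Finset.univ s
          have he0 : e.starHeight = 0 := by omega
          have := SegLang_hasH (f := f) (B := B) (c := c) hcB hB e he0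
          rwa [hL] at this
        have hpiece : ∀ q : M × LD x × M, HasH 0
            (ofPred fun w => q.1 * q.2.1.1 * q.2.2 = m ∧
              w ∈ LB f B q.1 * ({[c]} * (SegLang f B c (LB (LD.g x) Finset.univ q.2.1) *
                LB f B q.2.2))) := by
          intro q
          by_cases hq : q.1 * q.2.1.1 * q.2.2 = m
          · refine ((hB q.1).mul ((HasH.lit 0 c).mul ((hLD q.2.1).mul (hB q.2.2)))).congr ?_
            intro w
            constructor
            · intro h; exact ⟨hq, h⟩
            · intro h; exact h.2
          · refine (HasH.zero (α := β) 0).congr ?_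
            intro w
            constructor
            · intro h; exact (Language.notMem_zero _ h).elim
            · intro h; exact (hq h.1).elim
        refine ((hB m).add (HasH.iUnion _ hpiece)).congr ?_
        intro w
        rw [Language.mem_add]
        constructor
        · rintro (⟨h1, h2⟩ | ⟨q, hq, hw⟩)
          · exact ⟨fun a ha => Finset.mem_insert_of_mem (h1 a ha), h2⟩
          · obtain ⟨u0, hu0, z, hz, rfl⟩ := Language.mem_mul.mp hw
            obtain ⟨y, hy, z', hz', rfl⟩ := Language.mem_mul.mp hz
            have hy' : y = [c] := hy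
            subst hy'
            obtain ⟨v, ⟨l, hl, hv⟩, u1, hu1, rfl⟩ := Language.mem_mul.mp hz'
            constructor
            · intro a ha
              simp only [List.mem_append, List.mem_singleton] at ha
              rcases ha with ha | rfl | ha | ha
              · exact Finset.mem_insert_of_mem (hu0.1 a ha)
              · exact Finset.mem_insert_self _ _
              · rcases Seg_letters hv a ha with rfl | h
                · exact Finset.mem_insert_self _ _
                · exact Finset.mem_insert_of_mem h
              · exact Finset.mem_insert_of_mem (hu1.1 a ha)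
            · have hval : x * ev f v = LD.P x l := Seg_value hx.symm hv
              rw [← hq, ev_append, ev_append, ev_append, hu0.2, hu1.2]
              have h3 : ev f [c] = x := by simp [hx]
              rw [h3, ← mul_assoc x, hval, ← LD.ev_g_val l, hl.2]
              simp [mul_assoc]
        · rintro ⟨h1, h2⟩
          by_cases hcw : c ∈ w
          · right
            obtain ⟨u0, r, rfl, hu0⟩ := first_split c w hcw
            obtain ⟨v, u1, rfl, hu1, hv⟩ := last_split c r
            have hletB : ∀ z : List β, (∀ a ∈ z, a ∈ insert c B) → c ∉ z → ∀ a ∈ z, a ∈ B := by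
              intro z hz hcz a ha
              rcases Finset.mem_insert.mp (hz a ha) with rfl | h
              · exact (hcz ha).elim
              · exact h
            have hvseg : v ∈ SegAll f B c := by
              rw [mem_SegAll_iff hcB]
              rcases hv with rfl | ⟨z, rfl⟩
              · exact Or.inl rfl
              · refine Or.inr ⟨z, rfl, ?_⟩
                intro a ha
                have : a ∈ insert c B := h1 a (by simp [ha])
                exact Finset.mem_insert.mp this
            obtain ⟨l, hl⟩ := hvseg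
            have hu0' : ∀ a ∈ u0, a ∈ B := hletB u0 (fun a ha => h1 a (by simp [ha])) hu0
            have hu1' : ∀ a ∈ u1, a ∈ B := hletB u1 (fun a ha => h1 a (by simp [ha])) hu1
            refine ⟨(ev f u0, ev (LD.g x) l, ev f u1), ?_, ?_⟩
            · have hval : x * ev f v = LD.P x l := Seg_value hx.symm hl
              show ev f u0 * (ev (LD.g x) l).1 * ev f u1 = m
              rw [LD.ev_g_val, ← hval, ← h2, ev_append, ev_cons, ev_append, ← hx]
              simp [mul_assoc]
            · refine Language.mem_mul.mpr ⟨u0, ⟨hu0', rfl⟩, [c] ++ (v ++ u1), ?_, by simp⟩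
              refine Language.mem_mul.mpr ⟨[c], rfl, v ++ u1, ?_, rfl⟩
              exact Language.mem_mul.mpr ⟨v, ⟨l, ⟨by simp, rfl⟩, hl⟩, u1, ⟨hu1', rfl⟩, rfl⟩
          · left
            refine ⟨?_, h2⟩
            intro a ha
            rcases Finset.mem_insert.mp (h1 a ha) with rfl | h
            · exact (hcw ha).elim
            · exact h

/-- Schutzenberger's theorem for words in a finite alphabet, with aperiodicity required only for
values of words. -/
theorem sch {β M : Type} [Finite β] [Monoid M] [Finite M] (f : β → M)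
    (hM : ∀ u : List β, ∃ k : ℕ, (ev f u) ^ k = (ev f u) ^ (k + 1)) (m : M) :
    HasH 0 (ofPred fun w : List β => ev f w = m) := by
  classical
  haveI := Fintype.ofFinite β
  -- the submonoid of values of words
  let N : Submonoid M :=
    { carrier := {y | ∃ u : List β, ev f u = y}
      one_mem' := ⟨[], rfl⟩
      mul_mem' := by
        rintro _ _ ⟨u, rfl⟩ ⟨v, rfl⟩
        exact ⟨u ++ v, ev_append f u v⟩ }
  haveI : Fintype N := Fintype.ofFinite _
  let f' : β → N := fun a => ⟨f a, [a], by simp⟩
  have hval : ∀ u : List β, (ev f' u).1 = ev f u := by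
    intro u
    induction u with
    | nil => rfl
    | cons a u ih =>
      rw [ev_cons, ev_cons, Submonoid.coe_mul, ih]
  have hN : ∀ x : N, ∃ k : ℕ, x ^ k = x ^ (k + 1) := by
    rintro ⟨y, u, rfl⟩
    obtain ⟨k, hk⟩ := hM u
    refine ⟨k, Subtype.ext ?_⟩
    simpa using hk
  by_cases hm : m ∈ N
  · have := sch_aux (Fintype.card N) N le_rfl hN β f' Finset.univ ⟨m, hm⟩
    refine this.congr ?_
    intro w
    constructor
    · rintro ⟨-, h⟩
      have := congrArg Subtype.val h
      rwa [hval] at this
    · intro h
      refine ⟨by simp, Subtype.ext ?_⟩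
      rw [hval]
      exact h
  · refine (HasH.zero (α := β) 0).congr ?_
    intro w
    constructor
    · intro h; exact (Language.notMem_zero _ h).elim
    · intro h
      exact (hm ⟨w, h⟩).elim

end Vale.Agent.GSH
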